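/-!
A checker for case trees proving Ryser type bounds for `r`-partite hypergraphs.

Vertices of a partial hypergraph are coded by natural numbers `i`: the part is `i / 16`, the label
inside the part is `i % 16`. Sets of vertices are bit masks. The definitions use the raw
operations of `Nat` and raw recursors since the checker is only ever run by the kernel.
-/

namespace Vale.Agent.Lib.P045

/-- The bits of `a` that are not bits of `b`. -/
def andNot (a b : Nat) : Nat := Nat.xor a (Nat.land a b)

/-- The mask of the sixteen codes of part `p`. -/
def partMask (p : Nat) : Nat := Nat.shiftLeft 65535 (Nat.mul p 16)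

/-- Base sixteen digit number `q` of `x`. -/
def dig (x q : Nat) : Nat := Nat.mod (Nat.shiftRight x (Nat.mul q 4)) 16

/-- The mask of the compact edge `e`: the label in part `p` is digit `p` of `e`. -/
def emask (e : Nat) : Nat → Nat
  | 0 => 0
  | p + 1 => Nat.lor (emask e p) (Nat.shiftLeft 1 (Nat.add (Nat.mul p 16) (dig e p)))

/-- Partial hypergraph state: edge masks, mask of used vertices, and for each `j` the unions of
`j` pairwise disjoint edges of the state. -/
structure St where
  edges : List Nat
  used : Nat
  levels : List (List Nat)

/-- New unions after adding the edge `g`. -/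
def addLevels (g : Nat) : List Nat → List (List Nat) → List (List Nat)
  | _, [] => []
  | prev, L :: rest =>
      (((prev.filter (fun u => Nat.beq (Nat.land u g) 0)).map (fun u => Nat.lor u g)) ++ L) ::
        addLevels g L rest

/-- New levels after adding the edge `g`. -/
def addAll (g : Nat) : List (List Nat) → List (List Nat)
  | [] => []
  | L0 :: rest => L0 :: addLevels g L0 rest

/-- Add the edge with mask `g`. -/
def St.add (S : St) (g : Nat) : St :=
  ⟨g :: S.edges, Nat.lor S.used g, addAll g S.levels⟩

/-- The empty state. -/
def St.init (nu : Nat) : St :=
  ⟨[], 0, [0] :: List.replicate nu []⟩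

/-- The unions of `nu` pairwise disjoint edges: every edge of the hypergraph must meet each. -/
def St.top (S : St) : List Nat := S.levels.getLastD []

/-- State made from compact edges, in the given order. -/
def stateOf (r nu : Nat) (code : List Nat) : St :=
  code.foldl (fun S e => S.add (emask e r)) (St.init nu)

/-- Mask of a list of `n` base 256 digits. -/
def tMask : Nat → Nat → Nat
  | 0, _ => 0
  | n + 1, t => Nat.lor (Nat.shiftLeft 1 (Nat.mod t 256)) (tMask n (Nat.div t 256))

/-- The proof certificates. -/
inductive Cert
  | e
  | a (x rest : Cert)
  | t (T : Nat) (kids : Cert)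
  | k (kids : Cert)
  | r (idx perm inv : Nat) (maps : List Nat)

/-- The next label of part `p`. -/
def freshIdx (used p : Nat) : Nat :=
  Nat.add (Nat.mul p 16)
    (Nat.log2 (andNot (Nat.succ (Nat.mod (Nat.shiftRight used (Nat.mul p 16)) 65536))
      (Nat.mod (Nat.shiftRight used (Nat.mul p 16)) 65536)))

/-- Is a code valid as a new vertex of part `p`? -/
def freshOk (used p i : Nat) : Bool :=
  and (Nat.beq (Nat.div i 16) p) (not (Nat.testBit used i))

/-- The vertex map of a reference. -/
def rho (perm : Nat) (maps : List Nat) (i : Nat) : Nat :=
  dig perm (i / 16) * 16 + dig (maps.getD (i / 16) 0) (i % 16)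

/-- Image mask of compact edge `e` under the map. -/
def mapEdge (perm : Nat) (maps : List Nat) (e : Nat) : Nat → Nat
  | 0 => 0
  | p + 1 => Nat.lor (mapEdge perm maps e p) (Nat.shiftLeft 1 (rho perm maps (p * 16 + dig e p)))

/-- The first `n` digits of `m` are distinct and avoid the mask `acc`. -/
def injOk (m : Nat) : Nat → Nat → Bool
  | 0, _ => true
  | n + 1, acc =>
    and (Nat.beq (Nat.land acc (Nat.shiftLeft 1 (dig m n))) 0)
      (injOk m n (Nat.lor acc (Nat.shiftLeft 1 (dig m n))))

/-- `perm` and `inv` are inverse permutations of the first `r` digits. -/
def permOk (r perm inv : Nat) : Bool :=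
  (List.range r).all (fun p =>
    and (and (Nat.blt (dig perm p) r) (Nat.beq (dig inv (dig perm p)) p))
      (and (Nat.blt (dig inv p) r) (Nat.beq (dig perm (dig inv p)) p)))

/-- All conditions of a reference to the known state `(kl', code)`, from a state `S` with
`kl` pending matching edges. -/
def refOk (r kl : Nat) (S : St) (kl' : Nat) (code : List Nat) (perm inv : Nat)
    (maps : List Nat) : Bool :=
  and (and (and (and (Nat.ble kl' kl)
    (or (Nat.beq kl' 0) (and (Nat.beq (dig perm 0) 0) (Nat.beq (dig perm 1) 1))))
    (permOk r perm inv))
    ((List.range r).all (fun p => injOk (maps.getD p 0) 16 0)))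
    (code.all (fun e => S.edges.contains (mapEdge perm maps e r)))

/-- The tasks of the checker. -/
inductive Task
  | chk (kl : Nat) (S : St)
  | dfs (nk : Nat) (S : St) (cs : List Nat) (pat al : Nat)
  | cand (nk : Nat) (S : St) (cs : List Nat) (pat al cands : Nat)
  | parts (nk : Nat) (S : St) (p pat al : Nat)
  | pcand (nk : Nat) (S : St) (p pat al cands : Nat)

/-- Finish a node: the list of children must be used up. -/
def closeKids : Option Cert → Option Cert
  | some Cert.e => some Cert.e
  | _ => none

/-- Check a node. -/
def stepChk (r B univ : Nat) (known : List (Nat × List Nat)) (rc : Task → Cert → Option Cert)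
    (kl : Nat) (S : St) : Cert → Option Cert
  | Cert.t T kids => closeKids (rc (Task.dfs 0 S S.top 0 (andNot univ (tMask B T))) kids)
  | Cert.k kids =>
    match kl with
    | 0 => none
    | kl' + 1 =>
      closeKids (rc (Task.dfs kl' S S.top 0
        (andNot univ (Nat.land S.used (Nat.lor (partMask 0) (partMask 1))))) kids)
  | Cert.r idx perm inv maps =>
    match known[idx]? with
    | some (kl', code) => cond (refOk r kl S kl' code perm inv maps) (some Cert.e) none
    | none => none
  | _ => none

/-- Skip the constraints already hit by `pat`. -/
noncomputable def dropHit (pat : Nat) (cs : List Nat) : List Nat :=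
  List.rec (motive := fun _ => List Nat) []
    (fun c cs' ih => Bool.rec ih (c :: cs') (Nat.beq (Nat.land c pat) 0)) cs

/-- Look at the next unhit constraint. -/
noncomputable def stepDfs (rc : Task → Cert → Option Cert) (nk : Nat) (S : St) (pat al : Nat)
    (kids : Cert) (cs : List Nat) : Option Cert :=
  List.casesOn (motive := fun _ => Option Cert) (dropHit pat cs)
    (rc (Task.parts nk S 0 pat al) kids)
    (fun c cs' => rc (Task.cand nk S cs' pat al (Nat.land c al)) kids)

/-- Try a candidate. -/
noncomputable def stepCand2 (rc : Task → Cert → Option Cert) (nk : Nat) (S : St) (cs : List Nat)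
    (pat al cands v b : Nat) (kids : Cert) : Option Cert :=
  Option.casesOn (motive := fun _ => Option Cert)
    (rc (Task.dfs nk S cs (Nat.lor pat b) (andNot al (partMask (Nat.div v 16)))) kids)
    none
    (fun kids' => rc (Task.cand nk S cs pat (andNot al b) (andNot cands b)) kids')

/-- Try the candidates for hitting a constraint. -/
noncomputable def stepCand (rc : Task → Cert → Option Cert) (nk : Nat) (S : St) (cs : List Nat)
    (pat al cands : Nat) (kids : Cert) : Option Cert :=
  Bool.rec (motive := fun _ => Option Cert)
    (stepCand2 rc nk S cs pat al cands (Nat.log2 cands) (Nat.shiftLeft 1 (Nat.log2 cands)) kids)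
    (some kids)
    (Nat.beq cands 0)

/-- Complete a pattern part by part, and go to the child. -/
noncomputable def stepParts (r : Nat) (rc : Task → Cert → Option Cert) (nk : Nat) (S : St)
    (p pat al : Nat) (kids : Cert) : Option Cert :=
  Bool.rec (motive := fun _ => Option Cert)
    (Cert.casesOn (motive := fun _ => Option Cert) kids
      none
      (fun x rest => Option.casesOn (motive := fun _ => Option Cert)
        (rc (Task.chk nk (S.add pat)) x) none (fun _ => some rest))
      (fun _ _ => none) (fun _ => none) (fun _ _ _ _ => none))
    (Bool.rec (motive := fun _ => Option Cert)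
      (rc (Task.parts nk S (Nat.succ p) pat al) kids)
      (rc (Task.pcand nk S p pat al (Nat.land al (Nat.land S.used (partMask p)))) kids)
      (Nat.beq (Nat.land pat (partMask p)) 0))
    (Nat.blt p r)

/-- Try a vertex in a part. -/
noncomputable def stepPcand2 (rc : Task → Cert → Option Cert) (nk : Nat) (S : St)
    (p pat al cands b : Nat) (kids : Cert) : Option Cert :=
  Option.casesOn (motive := fun _ => Option Cert)
    (rc (Task.parts nk S (Nat.succ p) (Nat.lor pat b) al) kids)
    none
    (fun kids' => rc (Task.pcand nk S p pat al (andNot cands b)) kids')

/-- Try the possible vertices in a part. -/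
noncomputable def stepPcand (rc : Task → Cert → Option Cert) (nk : Nat) (S : St)
    (p pat al cands : Nat) (kids : Cert) : Option Cert :=
  Bool.rec (motive := fun _ => Option Cert)
    (stepPcand2 rc nk S p pat al cands (Nat.shiftLeft 1 (Nat.log2 cands)) kids)
    (cond (freshOk S.used p (freshIdx S.used p))
      (rc (Task.parts nk S (Nat.succ p) (Nat.lor pat (Nat.shiftLeft 1 (freshIdx S.used p))) al) kids)
      none)
    (Nat.beq cands 0)

/-- Dispatch on the task. -/
noncomputable def step (r B univ : Nat) (known : List (Nat × List Nat))
    (rc : Task → Cert → Option Cert) (t : Task) (c : Cert) : Option Cert :=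
  Task.casesOn (motive := fun _ => Option Cert) t
    (fun kl S => stepChk r B univ known rc kl S c)
    (fun nk S cs pat al => stepDfs rc nk S pat al c cs)
    (fun nk S cs pat al cands => stepCand rc nk S cs pat al cands c)
    (fun nk S p pat al => stepParts r rc nk S p pat al c)
    (fun nk S p pat al cands => stepPcand rc nk S p pat al cands c)

/-- The checker. `some rest` means the task is done, `rest` is the unused part of the list
of child certificates. -/
noncomputable def run (r B univ : Nat) (known : List (Nat × List Nat)) (fuel : Nat) :
    Task → Cert → Option Cert :=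
  Nat.rec (motive := fun _ => Task → Cert → Option Cert) (fun _ _ => none)
    (fun _ ih t c => step r B univ known ih t c) fuel

/-- The Boolean check of a node. -/
noncomputable def checkNode (r nu B univ : Nat) (known : List (Nat × List Nat)) (fuel kl : Nat)
    (code : List Nat) (c : Cert) : Bool :=
  Option.isSome (run r B univ known fuel (Task.chk kl (stateOf r nu code)) c)

end Vale.Agent.Lib.P045
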