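import Vale.Agent.Lib.P045.Ref

/-!
The theorem of Koenig in the form used here, derived from the marriage theorem, and the
reduction of the bound to the root state.
-/

namespace Vale.Agent.Lib.P045

universe u u1 u2 u3

theorem konig {ι : Type u1} {α : Type u2} {β : Type u3} (E : Finset ι) (x : ι → α) (y : ι → β)
    (t : ℕ) :
    (∃ Q ⊆ E, Q.card = t ∧ Set.InjOn x Q ∧ Set.InjOn y Q) ∨
    (∃ (A : Finset α) (B : Finset β), A.card + B.card < t ∧ ∀ e ∈ E, x e ∈ A ∨ y e ∈ B) := by
  classical
  by_cases hXt : (E.image x).card < t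
  · right
    refine ⟨E.image x, ∅, by simpa using hXt, fun e he => Or.inl (Finset.mem_image_of_mem x he)⟩
  have hXt' : t ≤ (E.image x).card := by omega
  generalize hXdef : E.image x = X at hXt'
  have hXmem : ∀ e ∈ E, x e ∈ X := fun e he => by
    rw [← hXdef]
    exact Finset.mem_image_of_mem x he
  have hXmem' : ∀ a ∈ X, ∃ e ∈ E, x e = a := fun a ha => by
    rw [← hXdef] at ha
    simpa using ha
  generalize hd : X.card - t = d
  let N : {a // a ∈ X} → Finset (β ⊕ Fin d) := fun a =>
    ((E.filter (fun e => x e = a.1)).image (fun e => Sum.inl (y e))) ∪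
      (Finset.univ.image Sum.inr)
  by_cases hall : ∀ s : Finset {a // a ∈ X}, s.card ≤ (s.biUnion N).card
  · left
    rcases isEmpty_or_nonempty ι with hι | hι
    · have hE : E = ∅ := Finset.eq_empty_of_isEmpty E
      subst hE
      have hX0 : X = ∅ := by
        rw [← hXdef]
        simp
      subst hX0
      have ht0 : t = 0 := by simpa using hXt'
      subst ht0
      exact ⟨∅, by simp, by simp, by simp, by simp⟩
    obtain ⟨f, hfi, hfN⟩ := (Finset.all_card_le_biUnion_card_iff_exists_injective N).1 hall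
    let Z : Finset {a // a ∈ X} := Finset.univ.filter (fun a => (f a).isLeft = true)
    let Zc : Finset {a // a ∈ X} := Finset.univ.filter (fun a => ¬ (f a).isLeft = true)
    have hZc : Zc.card ≤ d := by
      have h1 : Zc.image f ⊆ Finset.univ.image Sum.inr := by
        intro w hw
        obtain ⟨a, ha, rfl⟩ := Finset.mem_image.1 hw
        have h2 := (Finset.mem_filter.1 ha).2
        cases hfa : f a with
        | inl b =>
          rw [hfa] at h2
          exact absurd rfl h2
        | inr b => exact Finset.mem_image_of_mem _ (Finset.mem_univ b)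
      have h2 := Finset.card_le_card h1
      rw [Finset.card_image_of_injective _ hfi] at h2
      refine h2.trans (Finset.card_image_le.trans ?_)
      simp
    have hZsum : Z.card + Zc.card = X.card := by
      have := Finset.card_filter_add_card_filter_not (s := (Finset.univ : Finset {a // a ∈ X}))
        (fun a => (f a).isLeft = true)
      rw [Finset.card_univ, Fintype.card_coe] at this
      exact this
    have hZ : t ≤ Z.card := by omega
    have hch : ∀ a : {a // a ∈ X}, (f a).isLeft = true →
        ∃ e ∈ E, x e = a.1 ∧ f a = Sum.inl (y e) := by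
      intro a ha
      have h1 := hfN a
      rw [Finset.mem_union] at h1
      rcases h1 with h1 | h1
      · obtain ⟨e, he, he2⟩ := Finset.mem_image.1 h1
        obtain ⟨he3, he4⟩ := Finset.mem_filter.1 he
        exact ⟨e, he3, he4, he2.symm⟩
      · obtain ⟨b, _, hb⟩ := Finset.mem_image.1 h1
        rw [← hb] at ha
        exact absurd ha (by simp)
    choose! g hg1 hg2 hg3 using hch
    have hgZ : ∀ a ∈ Z, (f a).isLeft = true := fun a ha => (Finset.mem_filter.1 ha).2
    have hginj : Set.InjOn g (Z : Set {a // a ∈ X}) := by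
      intro a ha b hb hab
      have h1 := hg2 a (hgZ a ha)
      have h2 := hg2 b (hgZ b hb)
      apply Subtype.ext
      rw [← h1, ← h2, hab]
    have hcard : (Z.image g).card = Z.card := Finset.card_image_of_injOn hginj
    obtain ⟨Q, hQ1, hQ2⟩ := Finset.exists_subset_card_eq (s := Z.image g) (n := t) (by omega)
    refine ⟨Q, ?_, hQ2, ?_, ?_⟩
    · intro e he
      obtain ⟨a, ha, rfl⟩ := Finset.mem_image.1 (hQ1 he)
      exact hg1 a (hgZ a ha)
    · intro e he e' he' hee
      obtain ⟨a, ha, rfl⟩ := Finset.mem_image.1 (hQ1 he)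
      obtain ⟨b, hb, rfl⟩ := Finset.mem_image.1 (hQ1 he')
      have h1 := hg2 a (hgZ a ha)
      have h2 := hg2 b (hgZ b hb)
      have : a = b := by
        apply Subtype.ext
        rw [← h1, ← h2]
        exact hee
      rw [this]
    · intro e he e' he' hee
      obtain ⟨a, ha, rfl⟩ := Finset.mem_image.1 (hQ1 he)
      obtain ⟨b, hb, rfl⟩ := Finset.mem_image.1 (hQ1 he')
      have h1 := hg3 a (hgZ a ha)
      have h2 := hg3 b (hgZ b hb)
      have : a = b := by
        apply hfi
        rw [h1, h2, hee]
      rw [this]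
  · right
    push Not at hall
    obtain ⟨s, hs⟩ := hall
    have hsne : s.Nonempty := by
      rw [← Finset.card_pos]
      omega
    obtain ⟨a0, ha0⟩ := hsne
    let B : Finset β := (E.filter (fun e => ∃ a ∈ s, x e = a.1)).image y
    let A : Finset α := X \ s.image Subtype.val
    have hsub : s.image Subtype.val ⊆ X := by
      intro v hv
      obtain ⟨a, _, rfl⟩ := Finset.mem_image.1 hv
      exact a.2
    have hA : A.card + s.card = X.card := by
      have h1 := Finset.card_sdiff_add_card_eq_card hsub
      rwa [Finset.card_image_of_injective _ Subtype.val_injective] at h1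
    have hU : (Finset.univ.image (Sum.inr : Fin d → β ⊕ Fin d)) ∪
        (B.image (Sum.inl : β → β ⊕ Fin d)) ⊆ s.biUnion N := by
      intro w hw
      rw [Finset.mem_union] at hw
      rcases hw with hw | hw
      · rw [Finset.mem_biUnion]
        refine ⟨a0, ha0, ?_⟩
        exact Finset.mem_union_right _ hw
      · obtain ⟨b, hb, rfl⟩ := Finset.mem_image.1 hw
        obtain ⟨e, he, rfl⟩ := Finset.mem_image.1 hb
        obtain ⟨he1, a, ha, he2⟩ := Finset.mem_filter.1 he
        rw [Finset.mem_biUnion]
        refine ⟨a, ha, ?_⟩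
        apply Finset.mem_union_left
        exact Finset.mem_image.2 ⟨e, Finset.mem_filter.2 ⟨he1, he2⟩, rfl⟩
    have hcardU := Finset.card_le_card hU
    rw [Finset.card_union_of_disjoint (by
      rw [Finset.disjoint_left]
      intro w hw hw'
      obtain ⟨b, _, rfl⟩ := Finset.mem_image.1 hw
      obtain ⟨b', _, hb'⟩ := Finset.mem_image.1 hw'
      exact absurd hb' (by simp)),
      Finset.card_image_of_injective _ Sum.inr_injective,
      Finset.card_image_of_injective _ Sum.inl_injective] at hcardU
    simp only [Finset.card_univ, Fintype.card_fin] at hcardU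
    refine ⟨A, B, by omega, ?_⟩
    intro e he
    by_cases hes : x e ∈ s.image Subtype.val
    · right
      obtain ⟨a, ha, hae⟩ := Finset.mem_image.1 hes
      exact Finset.mem_image.2 ⟨e, Finset.mem_filter.2 ⟨he, a, ha, hae.symm⟩, rfl⟩
    · left
      exact Finset.mem_sdiff.2 ⟨hXmem e he, hes⟩

/-- The same as `chk_sound` with the arguments in the order best for the elaborator. -/
theorem chk_sound2 {r nu B univ fuel kl : ℕ} {known : List (ℕ × List ℕ)} {code : List ℕ}
    {cert : Cert} (h : checkNode r nu B univ known fuel kl code cert = true)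
    (huniv : univ = 2 ^ (r * 16) - 1) (hk : KnownOK.{u} r nu B known) :
    RefK.{u} r nu B kl code :=
  chk_sound huniv hk h

/-- The bound from the refutation of the root state. -/
theorem bound_of_root {r nu B : ℕ} (hr : 2 ≤ r) (root : RefK.{u} r nu B (B + 1) [])
    {W : Type u} (c : W → ℕ) (H : Finset (Finset W))
    (hparts : ∀ e ∈ H, ∀ p, p < r → ∃ v ∈ e, c v = p)
    (huniq : ∀ e ∈ H, ∀ v ∈ e, ∀ w ∈ e, c v = c w → v = w)
    (hcol : ∀ e ∈ H, ∀ v ∈ e, c v < r)
    (hnu : ∀ M : Finset (Finset W), M ⊆ H →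
      (∀ a ∈ M, ∀ b ∈ M, a ≠ b → ∀ v, v ∈ a → v ∉ b) → M.card ≤ nu) :
    ∃ T : Finset W, T.card ≤ B ∧ ∀ e ∈ H, ∃ v ∈ e, v ∈ T := by
  classical
  by_contra hno
  push Not at hno
  have hG : Good r nu B c H := ⟨by omega, hparts, huniq, hcol, hnu, hno⟩
  obtain ⟨e0, he0, _⟩ := hno ∅ (by simp)
  obtain ⟨v0, _, _⟩ := hparts e0 he0 0 (by omega)
  have : Nonempty W := ⟨v0⟩
  have hparts' : ∀ e, e ∈ H → ∀ p, p < r → ∃ v, v ∈ e ∧ c v = p := by
    intro e he p hp
    obtain ⟨v, hv, hc⟩ := hparts e he p hp
    exact ⟨v, hv, hc⟩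
  choose! g hg using hparts'
  rcases konig H (fun e => g e 0) (fun e => g e 1) (B + 1) with h | h
  · obtain ⟨Q, hQ1, hQ2, hQ3, hQ4⟩ := h
    refine root W c H (fun _ => v0) hG (valid_init r nu c H _) ⟨Q, hQ1, hQ2, ?_, ?_⟩
    · intro a ha b hb hab v hva hvb
      by_contra hlt
      have h2 : c v = 0 ∨ c v = 1 := by omega
      apply hab
      rcases h2 with h2 | h2
      · apply hQ3 ha hb
        have h3 := hg a (hQ1 ha) 0 (by omega)
        have h4 := hg b (hQ1 hb) 0 (by omega)
        show g a 0 = g b 0
        rw [huniq a (hQ1 ha) _ h3.1 v hva (by rw [h3.2, h2]),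
          huniq b (hQ1 hb) _ h4.1 v hvb (by rw [h4.2, h2])]
      · apply hQ4 ha hb
        have h3 := hg a (hQ1 ha) 1 (by omega)
        have h4 := hg b (hQ1 hb) 1 (by omega)
        show g a 1 = g b 1
        rw [huniq a (hQ1 ha) _ h3.1 v hva (by rw [h3.2, h2]),
          huniq b (hQ1 hb) _ h4.1 v hvb (by rw [h4.2, h2])]
    · intro a _ i hi
      exact absurd hi (by
        show ¬ (St.init nu).used.testBit i = true
        simp [St.init])
  · obtain ⟨A, A', hcard, hcov⟩ := h
    obtain ⟨e, he, hev⟩ := hno (A ∪ A') (by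
      have := Finset.card_union_le A A'
      omega)
    rcases hcov e he with h1 | h1
    · exact hev _ (hg e he 0 (by omega)).1 (Finset.mem_union_left _ h1)
    · exact hev _ (hg e he 1 (by omega)).1 (Finset.mem_union_right _ h1)

/-- The bound for hypergraphs given with a colouring by `Fin r`. -/
theorem bound_of_root_fin {r nu B : ℕ} (hr : 2 ≤ r) (root : RefK.{u} r nu B (B + 1) [])
    {V : Type u} [DecidableEq V] (part : V → Fin r) (H : Finset (Finset V))
    (hH : ∀ e ∈ H, ∀ i : Fin r, (e.filter fun v => part v = i).card = 1)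
    (hν : ∀ M ⊆ H, (M : Set (Finset V)).PairwiseDisjoint id → M.card ≤ nu) :
    ∃ T : Finset V, T.card ≤ B ∧ ∀ e ∈ H, ∃ v ∈ e, v ∈ T := by
  refine bound_of_root hr root (fun v => (part v).val) H ?_ ?_ ?_ ?_
  · intro e he p hp
    obtain ⟨v, hv⟩ := Finset.card_eq_one.1 (hH e he ⟨p, hp⟩)
    have hvm : v ∈ e.filter fun v => part v = ⟨p, hp⟩ := by
      rw [hv]
      exact Finset.mem_singleton_self v
    obtain ⟨h1, h2⟩ := Finset.mem_filter.1 hvm
    exact ⟨v, h1, by rw [h2]⟩
  · intro e he v hv w hw hvw
    have h1 : part v = part w := Fin.ext hvw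
    have h2 := hH e he (part w)
    exact Finset.card_le_one.1 (le_of_eq h2) v (Finset.mem_filter.2 ⟨hv, h1⟩) w
      (Finset.mem_filter.2 ⟨hw, rfl⟩)
  · intro _ _ v _
    exact (part v).2
  · intro M hM hd
    refine hν M hM ?_
    intro a ha b hb hab
    refine Finset.disjoint_left.2 ?_
    intro v hva
    exact hd a ha b hb hab v hva

end Vale.Agent.Lib.P045
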