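import Vale.Agent.Lib.P045.Run

/-!
Soundness of references to earlier states, and of the whole checker.
-/

namespace Vale.Agent.Lib.P045

universe u

theorem levels_replicate {W : Type u} (H : Finset (Finset W)) (φ : ℕ → W) (U j n : ℕ) :
    LevelsOK H φ U j (List.replicate n []) := by
  induction n generalizing j with
  | zero => trivial
  | succ n ih =>
    refine ⟨fun u hu => absurd hu (List.not_mem_nil), ih (j + 1)⟩

theorem valid_init (r nu : ℕ) {W : Type u} (c : W → ℕ) (H : Finset (Finset W)) (φ : ℕ → W) :
    Valid r nu c H φ (St.init nu) := by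
  refine ⟨?_, ?_, ?_, ?_, ?_, ?_⟩
  · intro i hi
    exact absurd hi (by simp [St.init])
  · intro i hi
    exact absurd hi (by simp [St.init])
  · intro i _ hi
    exact absurd hi (by simp [St.init])
  · intro m hm
    exact absurd hm (List.not_mem_nil)
  · refine ⟨?_, levels_replicate H φ _ _ _⟩
    intro u hu
    have : u = 0 := List.mem_singleton.1 hu
    subst this
    exact ⟨MU_zero H φ, fun i hi => hi⟩
  · simp [St.init]

theorem valid_fold {r nu : ℕ} {W : Type u} {c : W → ℕ} {H : Finset (Finset W)} {φ : ℕ → W}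
    {Ok : ℕ → Prop}
    (hlt : ∀ i, Ok i → i / 16 < r) (hcol : ∀ i, Ok i → c (φ i) = i / 16)
    (hinj : ∀ i j, Ok i → Ok j → φ i = φ j → i = j)
    (L : List ℕ)
    (hL : ∀ e ∈ L, (∃ f ∈ H, Realizes φ (emask e r) f ∧ ∃ v, v ∈ f) ∧
      ∀ i, (emask e r).testBit i = true → Ok i)
    (S0 : St) (h0 : Valid r nu c H φ S0) (h0' : ∀ i, S0.used.testBit i = true → Ok i) :
    Valid r nu c H φ (L.foldl (fun S e => S.add (emask e r)) S0) ∧
      ∀ i, (L.foldl (fun S e => S.add (emask e r)) S0).used.testBit i = true → Ok i := by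
  induction L generalizing S0 with
  | nil => exact ⟨h0, h0'⟩
  | cons e L ih =>
    apply ih (fun x hx => hL x (List.mem_cons_of_mem _ hx))
    · obtain ⟨⟨f, hf, hr, hne⟩, hb⟩ := hL e List.mem_cons_self
      refine Valid.add h0 hf hr hne (fun i hi => hlt i (hb i hi)) (fun i hi => hcol i (hb i hi)) ?_
      intro i j hi hj heq
      have hi' : Ok i := by
        rcases hi with hi | hi
        · exact h0' i hi
        · exact hb i hi
      have hj' : Ok j := by
        rcases hj with hj | hj
        · exact h0' j hj
        · exact hb j hj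
      exact hinj i j hi' hj' heq
    · intro i hi
      obtain ⟨_, hb⟩ := hL e List.mem_cons_self
      have : (Nat.lor S0.used (emask e r)).testBit i = true := hi
      rw [tb_lor, Bool.or_eq_true] at this
      rcases this with h | h
      · exact h0' i h
      · exact hb i h

theorem rho_code (perm : ℕ) (maps : List ℕ) (p l : ℕ) (hl : l < 16) :
    rho perm maps (p * 16 + l) = dig perm p * 16 + dig (maps.getD p 0) l := by
  unfold rho
  rw [code_div p l hl, code_mod p l hl]

theorem ref_sound {r nu B kl kl' : ℕ} {S : St} {code : List ℕ} {perm inv : ℕ} {maps : List ℕ}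
    (hok : refOk r kl S kl' code perm inv maps = true)
    (hkn : RefK.{u} r nu B kl' code) : SemChk.{u} r nu B kl S := by
  classical
  unfold refOk at hok
  rw [Bool.and_eq_true, Bool.and_eq_true, Bool.and_eq_true, Bool.and_eq_true] at hok
  obtain ⟨⟨⟨⟨h1, h2⟩, h3⟩, h4⟩, h5⟩ := hok
  intro W c H φ hG hV hQ
  have hkl : kl' ≤ kl := Nat.le_of_ble_eq_true h1
  have hp : ∀ p, p < r → dig perm p < r ∧ dig inv (dig perm p) = p ∧ dig inv p < r ∧
      dig perm (dig inv p) = p := by
    intro p hpr
    have := (List.all_eq_true.1 h3) p (List.mem_range.2 hpr)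
    rw [Bool.and_eq_true, Bool.and_eq_true, Bool.and_eq_true] at this
    obtain ⟨⟨a1, a2⟩, a3, a4⟩ := this
    exact ⟨Nat.blt_eq.mp a1, Nat.eq_of_beq_eq_true a2, Nat.blt_eq.mp a3, Nat.eq_of_beq_eq_true a4⟩
  have hm : ∀ p, p < r → ∀ l l', l < 16 → l' < 16 →
      dig (maps.getD p 0) l = dig (maps.getD p 0) l' → l = l' := by
    intro p hpr l l' hl hl' heq
    have := (List.all_eq_true.1 h4) p (List.mem_range.2 hpr)
    exact (tb_injOk _ _ _ this).2 l l' hl hl' heq
  have he : ∀ e ∈ code, mapEdge perm maps e r ∈ S.edges := by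
    intro e hec
    have := (List.all_eq_true.1 h5) e hec
    simpa using this
  let c' : W → ℕ := fun v => dig inv (c v)
  let φ' : ℕ → W := fun i => φ (rho perm maps i)
  have hG' : Good r nu B c' H := by
    refine ⟨hG.pos, ?_, ?_, ?_, hG.nu_le, hG.tau⟩
    · intro e he p hpr
      obtain ⟨v, hv, hcv⟩ := hG.parts e he (dig perm p) (hp p hpr).1
      refine ⟨v, hv, ?_⟩
      show dig inv (c v) = p
      rw [hcv]
      exact (hp p hpr).2.1
    · intro e he v hv w hw hvw
      apply hG.uniq e he v hv w hw
      have hvw' : dig inv (c v) = dig inv (c w) := hvw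
      have a1 := (hp (c v) (hG.col_lt e he v hv)).2.2.2
      have a2 := (hp (c w) (hG.col_lt e he w hw)).2.2.2
      rw [← a1, ← a2, hvw']
    · intro e he v hv
      exact (hp (c v) (hG.col_lt e he v hv)).2.2.1
  let Ok : ℕ → Prop := fun i => ∃ e ∈ code, ∃ p, p < r ∧ i = p * 16 + dig e p
  have hdiv : ∀ i, Ok i → i / 16 < r := by
    rintro i ⟨e, _, p, hpr, rfl⟩
    rw [code_div p _ (dig_lt _ _)]
    exact hpr
  have hrhoU : ∀ i, Ok i → S.used.testBit (rho perm maps i) = true := by
    rintro i ⟨e, hec, p, hpr, rfl⟩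
    exact (hV.edges _ (he e hec)).2 _ ((tb_mapEdge _ _ _ _ _).2 ⟨p, hpr, rfl⟩)
  have hrdiv : ∀ i, Ok i → rho perm maps i / 16 = dig perm (i / 16) := by
    rintro i ⟨e, _, p, _, rfl⟩
    rw [rho_code _ _ _ _ (dig_lt _ _), code_div _ _ (dig_lt _ _), code_div _ _ (dig_lt _ _)]
  have hcol : ∀ i, Ok i → c' (φ' i) = i / 16 := by
    intro i hi
    show dig inv (c (φ (rho perm maps i))) = i / 16
    rw [hV.col _ (hrhoU i hi), hrdiv i hi]
    exact (hp _ (hdiv i hi)).2.1
  have hinj : ∀ i j, Ok i → Ok j → φ' i = φ' j → i = j := by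
    intro i j hi hj heq
    have h6 := hV.inj _ _ (hrhoU i hi) (hrhoU j hj) heq
    obtain ⟨e, _, p, hpr, rfl⟩ := hi
    obtain ⟨e', _, p', hpr', rfl⟩ := hj
    rw [rho_code _ _ _ _ (dig_lt _ _), rho_code _ _ _ _ (dig_lt _ _)] at h6
    have d1 := dig_lt (maps.getD p 0) (dig e p)
    have d2 := dig_lt (maps.getD p' 0) (dig e' p')
    have h7 : dig perm p = dig perm p' := by omega
    have h8 : dig (maps.getD p 0) (dig e p) = dig (maps.getD p' 0) (dig e' p') := by omega
    have h9 : p = p' := by
      have a1 := (hp p hpr).2.1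
      have a2 := (hp p' hpr').2.1
      rw [← a1, ← a2, h7]
    subst h9
    rw [hm p hpr _ _ (dig_lt _ _) (dig_lt _ _) h8]
  have hreal : ∀ e ∈ code, (∃ f ∈ H, Realizes φ' (emask e r) f ∧ ∃ v, v ∈ f) ∧
      ∀ i, (emask e r).testBit i = true → Ok i := by
    intro e hec
    constructor
    · obtain ⟨⟨f, hf, hr⟩, _⟩ := hV.edges _ (he e hec)
      refine ⟨f, hf, ?_, edge_nonempty hG hf⟩
      intro v
      constructor
      · intro hv
        obtain ⟨k, hk, rfl⟩ := (hr v).1 hv
        obtain ⟨p, hpr, rfl⟩ := (tb_mapEdge _ _ _ _ _).1 hk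
        exact ⟨p * 16 + dig e p, (tb_emask _ _ _).2 ⟨p, hpr, rfl⟩, rfl⟩
      · rintro ⟨i, hi, rfl⟩
        obtain ⟨p, hpr, rfl⟩ := (tb_emask _ _ _).1 hi
        exact (hr _).2 ⟨_, (tb_mapEdge _ _ _ _ _).2 ⟨p, hpr, rfl⟩, rfl⟩
    · intro i hi
      obtain ⟨p, hpr, rfl⟩ := (tb_emask _ _ _).1 hi
      exact ⟨e, hec, p, hpr, rfl⟩
  obtain ⟨hVal, hUsed⟩ := valid_fold hdiv hcol hinj code hreal (St.init nu)
    (valid_init r nu c' H φ') (by
      intro i hi
      exact absurd hi (by simp [St.init]))
  obtain ⟨Q, hQ1, hQ2, hQ3, hQ4⟩ := hQ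
  refine hkn W c' H φ' hG' hVal ?_
  by_cases h0 : kl' = 0
  · subst h0
    exact ⟨∅, by simp, by simp, by simp, by simp⟩
  · have h2' : dig perm 0 = 0 ∧ dig perm 1 = 1 := by
      rw [Bool.or_eq_true] at h2
      rcases h2 with h2 | h2
      · exact absurd (Nat.eq_of_beq_eq_true h2) h0
      · rw [Bool.and_eq_true] at h2
        exact ⟨Nat.eq_of_beq_eq_true h2.1, Nat.eq_of_beq_eq_true h2.2⟩
    obtain ⟨Q', hQ'1, hQ'2⟩ := Finset.exists_subset_card_eq (s := Q) (n := kl') (by omega)
    refine ⟨Q', hQ'1.trans hQ1, hQ'2, ?_, ?_⟩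
    · intro a ha b hb hab v hva hvb
      have h6 := hQ3 a (hQ'1 ha) b (hQ'1 hb) hab v hva hvb
      by_contra h7
      have h8 := hG.col_lt a (hQ1 (hQ'1 ha)) v hva
      have h9 := (hp (c v) h8).2.2.2
      have h10 : dig inv (c v) < 2 := by
        have : ¬ 2 ≤ dig inv (c v) := h7
        omega
      have h11 : dig inv (c v) = 0 ∨ dig inv (c v) = 1 := by omega
      rcases h11 with h11 | h11
      · rw [h11, h2'.1] at h9
        omega
      · rw [h11, h2'.2] at h9
        omega
    · intro a ha i hi hi2
      have h6 := hUsed i hi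
      have h7 := hrdiv i h6
      have h8 : i / 16 = 0 ∨ i / 16 = 1 := by omega
      refine hQ4 a (hQ'1 ha) _ (hrhoU i h6) ?_
      rw [h7]
      rcases h8 with h8 | h8
      · rw [h8, h2'.1]; omega
      · rw [h8, h2'.2]; omega

theorem known_get {r nu B : ℕ} {known : List (ℕ × List ℕ)} (hk : KnownOK.{u} r nu B known)
    {idx kl' : ℕ} {code : List ℕ} (h : known[idx]? = some (kl', code)) :
    RefK.{u} r nu B kl' code := by
  induction known generalizing idx with
  | nil => simp at h
  | cons x l ih =>
    cases idx with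
    | zero =>
      simp only [List.getElem?_cons_zero, Option.some.injEq] at h
      subst h
      exact hk.1
    | succ idx =>
      simp only [List.getElem?_cons_succ] at h
      exact ih hk.2 h

theorem closeKids_some {x : Option Cert} {y : Cert} (h : closeKids x = some y) :
    ∃ res, x = some res := by
  cases x with
  | none => exact (none_ne h).elim
  | some res => exact ⟨res, rfl⟩

theorem sem_chk {r nu B univ : ℕ} {known : List (ℕ × List ℕ)} (huniv : univ = 2 ^ (r * 16) - 1)
    (hk : KnownOK.{u} r nu B known) {rc : Task → Cert → Option Cert}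
    (hrc : ∀ t c res, rc t c = some res → SemT.{u} r nu B t)
    {kl : ℕ} {S : St} {cert res : Cert}
    (h : stepChk r B univ known rc kl S cert = some res) : SemChk.{u} r nu B kl S := by
  have huni : ∀ i, i / 16 < r → univ.testBit i = true := by
    intro i hi
    rw [huniv, Nat.testBit_two_pow_sub_one]
    have : i < r * 16 := by omega
    simpa using this
  cases cert with
  | e => exact (none_ne h).elim
  | a x rest => exact (none_ne h).elim
  | t T kids =>
    obtain ⟨res', h1⟩ := closeKids_some h
    have h2 : SemDfs.{u} r nu B 0 S S.top 0 (andNot univ (tMask B T)) := hrc _ _ _ h1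
    intro W c H φ hG hV _
    classical
    have hT' : ((tList B T).map φ).toFinset.card ≤ B := by
      refine (List.toFinset_card_le _).trans ?_
      rw [List.length_map, tList_length]
    obtain ⟨f, hf, hfT⟩ := hG.tau _ hT'
    refine h2 W c H φ f hG hV hf ?_ (top_hits hG hV hf)
      ⟨∅, by simp, by simp, by simp, by simp, by simp⟩
    refine ⟨?_, ?_, ?_, ?_⟩
    · intro i hi
      simp at hi
    · intro i hiu hif
      right
      rw [tb_andNot, huni i (hV.lt i hiu), Bool.true_and]
      cases hb : (tMask B T).testBit i with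
      | false => rfl
      | true =>
        exfalso
        have := tb_tMask _ _ _ hb
        refine hfT _ hif ?_
        rw [List.mem_toFinset]
        exact List.mem_map_of_mem this
    · intro i _ hi
      simp at hi
    · intro i hi
      simp at hi
  | k kids =>
    cases kl with
    | zero => exact (none_ne h).elim
    | succ kl' =>
      obtain ⟨res', h1⟩ := closeKids_some h
      have h2 : SemDfs.{u} r nu B kl' S S.top 0
        (andNot univ (Nat.land S.used (Nat.lor (partMask 0) (partMask 1)))) := hrc _ _ _ h1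
      intro W c H φ hG hV hQ
      classical
      obtain ⟨Q, hQ1, hQ2, hQ3, hQ4⟩ := hQ
      have hne : Q.Nonempty := by
        rw [← Finset.card_pos, hQ2]
        omega
      obtain ⟨f, hfQ⟩ := hne
      have hf := hQ1 hfQ
      refine h2 W c H φ f hG hV hf ?_ (top_hits hG hV hf) ⟨Q.erase f, ?_, ?_, ?_, ?_, ?_⟩
      · refine ⟨?_, ?_, ?_, ?_⟩
        · intro i hi
          simp at hi
        · intro i hiu hif
          right
          rw [tb_andNot, huni i (hV.lt i hiu), Bool.true_and, tb_land, hiu, Bool.true_and, tb_lor,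
            tb_partMask, tb_partMask]
          have hi2 : ¬ (i / 16 < 2) := fun hi2 => hQ4 f hfQ i hiu hi2 hif
          have h0 : i / 16 ≠ 0 := by omega
          have h1 : i / 16 ≠ 1 := by omega
          simp [h0, h1]
        · intro i _ hi
          simp at hi
        · intro i hi
          simp at hi
      · exact (Finset.erase_subset _ _).trans hQ1
      · rw [Finset.card_erase_of_mem hfQ, hQ2]
        rfl
      · intro a ha b hb hab v hva hvb
        exact hQ3 a (Finset.mem_of_mem_erase ha) b (Finset.mem_of_mem_erase hb) hab v hva hvb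
      · intro a ha
        exact hQ4 a (Finset.mem_of_mem_erase ha)
      · intro a ha v hvf hva
        exact hQ3 f hfQ a (Finset.mem_of_mem_erase ha) (Finset.ne_of_mem_erase ha).symm v hvf hva
  | r idx perm inv maps =>
    have h' : (match known[idx]? with
      | some (kl', code) => cond (refOk r kl S kl' code perm inv maps) (some Cert.e) none
      | none => none) = some res := h
    cases hg : known[idx]? with
    | none =>
      rw [hg] at h'
      exact (none_ne h').elim
    | some x =>
      obtain ⟨kl', code⟩ := x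
      rw [hg] at h'
      cases hr : refOk r kl S kl' code perm inv maps with
      | false =>
        have h'' : cond (refOk r kl S kl' code perm inv maps) (some Cert.e) none = some res := h'
        rw [hr] at h''
        exact (none_ne h'').elim
      | true =>
        exact ref_sound hr (known_get hk hg)

theorem run_sound {r nu B univ : ℕ} {known : List (ℕ × List ℕ)} (huniv : univ = 2 ^ (r * 16) - 1)
    (hk : KnownOK.{u} r nu B known) (n : ℕ) :
    ∀ (t : Task) (c res : Cert), run r B univ known n t c = some res → SemT.{u} r nu B t := by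
  induction n with
  | zero =>
    intro t c res h
    exact (none_ne h).elim
  | succ n ih =>
    intro t c res h
    have h' : step r B univ known (run r B univ known n) t c = some res := h
    cases t with
    | chk kl S => exact sem_chk huniv hk ih h'
    | dfs nk S cs pat al => exact sem_dfs ih h'
    | cand nk S cs pat al cands => exact sem_cand ih h'
    | parts nk S p pat al => exact sem_parts ih h'
    | pcand nk S p pat al cands => exact sem_pcand ih h'

/-- A successful check of a state proves that it does not occur. -/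
theorem chk_sound {r nu B univ fuel kl : ℕ} {known : List (ℕ × List ℕ)} {code : List ℕ}
    {cert : Cert} (huniv : univ = 2 ^ (r * 16) - 1) (hk : KnownOK.{u} r nu B known)
    (h : checkNode r nu B univ known fuel kl code cert = true) : RefK.{u} r nu B kl code := by
  unfold checkNode at h
  obtain ⟨res, hres⟩ := Option.isSome_iff_exists.1 h
  exact run_sound huniv hk fuel _ _ _ hres

end Vale.Agent.Lib.P045
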