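import Vale.Agent.Lib.P045.Sound

/-!
Soundness of the steps of the checker.
-/

namespace Vale.Agent.Lib.P045

universe u

theorem none_ne {α : Type} {x : α} (h : (none : Option α) = some x) : False := by
  cases h

/-- The statement attached to a task. -/
def SemT (r nu B : ℕ) : Task → Prop
  | Task.chk kl S => SemChk.{u} r nu B kl S
  | Task.dfs nk S cs pat al => SemDfs.{u} r nu B nk S cs pat al
  | Task.cand nk S cs pat al cands => SemCand.{u} r nu B nk S cs pat al cands
  | Task.parts nk S p pat al => SemParts.{u} r nu B nk S p pat al
  | Task.pcand nk S p pat al cands => SemPcand.{u} r nu B nk S p pat al cands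

theorem dropHit_sub (pat : ℕ) (cs : List ℕ) : ∀ x ∈ dropHit pat cs, x ∈ cs := by
  induction cs with
  | nil => intro x hx; exact hx
  | cons d cs ih =>
    intro x hx
    have h0 : dropHit pat (d :: cs) =
        Bool.rec (dropHit pat cs) (d :: cs) (Nat.beq (Nat.land d pat) 0) := rfl
    rw [h0] at hx
    cases hb : Nat.beq (Nat.land d pat) 0 with
    | false =>
      rw [hb] at hx
      exact List.mem_cons_of_mem _ (ih x hx)
    | true =>
      rw [hb] at hx
      exact hx

theorem dropHit_head (pat : ℕ) (cs : List ℕ) {d : ℕ} {cs' : List ℕ}
    (h : dropHit pat cs = d :: cs') : Nat.land d pat = 0 := by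
  induction cs with
  | nil =>
    have h' : ([] : List ℕ) = d :: cs' := h
    cases h'
  | cons e cs ih =>
    have h0 : dropHit pat (e :: cs) =
        Bool.rec (dropHit pat cs) (e :: cs) (Nat.beq (Nat.land e pat) 0) := rfl
    rw [h0] at h
    cases hb : Nat.beq (Nat.land e pat) 0 with
    | false =>
      rw [hb] at h
      exact ih h
    | true =>
      rw [hb] at h
      have h1 : e = d := (List.cons.inj h).1
      rw [← h1]
      exact beq_zero_true hb

theorem dropHit_tail (pat : ℕ) (cs : List ℕ) {d : ℕ} {cs' : List ℕ}
    (h : dropHit pat cs = d :: cs') : ∀ x ∈ cs', x ∈ cs := by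
  intro x hx
  apply dropHit_sub pat cs
  rw [h]
  exact List.mem_cons_of_mem _ hx

theorem sem_dfs {r nu B : ℕ} {rc : Task → Cert → Option Cert}
    (hrc : ∀ t c res, rc t c = some res → SemT.{u} r nu B t)
    {nk : ℕ} {S : St} {pat al : ℕ} {kids : Cert} {cs : List ℕ} {res : Cert}
    (h : stepDfs rc nk S pat al kids cs = some res) :
    SemDfs.{u} r nu B nk S cs pat al := by
  unfold stepDfs at h
  cases hd : dropHit pat cs with
  | nil =>
    rw [hd] at h
    have h1 : SemParts.{u} r nu B nk S 0 pat al := hrc _ _ _ h
    intro W c H φ f hG hV hf hA _ hQ
    exact h1 W c H φ f hG hV hf hA (fun q hq => absurd hq (Nat.not_lt_zero q)) hQ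
  | cons d cs' =>
    rw [hd] at h
    have h1 : SemCand.{u} r nu B nk S cs' pat al (Nat.land d al) := hrc _ _ _ h
    intro W c H φ f hG hV hf hA hcs hQ
    have hdm : d ∈ cs := by
      apply dropHit_sub pat cs
      rw [hd]
      exact List.mem_cons_self
    obtain ⟨i, hi, hu, hif⟩ := hcs d hdm
    have h0 : Nat.land d pat = 0 := dropHit_head pat cs hd
    rcases hA.a2 i hu hif with hp | ha
    · have := not_tb_of_zero (i := i) h0
      rw [tb_land, hi, hp] at this
      exact Bool.noConfusion this
    · refine h1 W c H φ f hG hV hf hA (fun u hu => hcs u (dropHit_tail pat cs hd u hu))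
        ⟨i, ?_, hu, hif⟩ hQ
      rw [tb_land, hi, ha]
      rfl

theorem sem_cand {r nu B : ℕ} {rc : Task → Cert → Option Cert}
    (hrc : ∀ t c res, rc t c = some res → SemT.{u} r nu B t)
    {nk : ℕ} {S : St} {cs : List ℕ} {pat al cands : ℕ} {kids res : Cert}
    (h : stepCand rc nk S cs pat al cands kids = some res) :
    SemCand.{u} r nu B nk S cs pat al cands := by
  unfold stepCand at h
  cases hb : Nat.beq cands 0 with
  | true =>
    intro W c H φ f _ _ _ _ _ hex _
    obtain ⟨i, hi, _, _⟩ := hex
    have := not_tb_of_zero (i := i) (beq_zero_true hb)
    rw [hi] at this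
    exact Bool.noConfusion this
  | false =>
    rw [hb] at h
    have h' : stepCand2 rc nk S cs pat al cands (Nat.log2 cands)
      (Nat.shiftLeft 1 (Nat.log2 cands)) kids = some res := h
    unfold stepCand2 at h'
    generalize hv : Nat.log2 cands = v at h'
    cases h1 : rc (Task.dfs nk S cs (Nat.lor pat (Nat.shiftLeft 1 v))
        (andNot al (partMask (Nat.div v 16)))) kids with
    | none =>
      rw [h1] at h'
      exact (none_ne h').elim
    | some kids' =>
      rw [h1] at h'
      have h2 : rc (Task.cand nk S cs pat (andNot al (Nat.shiftLeft 1 v))
        (andNot cands (Nat.shiftLeft 1 v))) kids' = some res := h'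
      have s1 : SemDfs.{u} r nu B nk S cs (Nat.lor pat (Nat.shiftLeft 1 v))
        (andNot al (partMask (Nat.div v 16))) := hrc _ _ _ h1
      have s2 : SemCand.{u} r nu B nk S cs pat (andNot al (Nat.shiftLeft 1 v))
        (andNot cands (Nat.shiftLeft 1 v)) := hrc _ _ _ h2
      intro W c H φ f hG hV hf hA hcs hex hQ
      by_cases hcase : S.used.testBit v = true ∧ φ v ∈ f
      · obtain ⟨hvu, hvf⟩ := hcase
        refine s1 W c H φ f hG hV hf ?_ hcs hQ
        refine ⟨?_, ?_, ?_, ?_⟩
        · intro i hi
          rw [tb_lor, Bool.or_eq_true, tb_shl1, decide_eq_true_eq] at hi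
          rcases hi with hi | hi
          · exact hA.a1 i hi
          · subst hi
            exact Or.inl ⟨hvu, hvf⟩
        · intro i hiu hif
          rcases hA.a2 i hiu hif with hp | ha
          · left
            rw [tb_lor, hp, Bool.true_or]
          · by_cases hiv : i / 16 = v / 16
            · left
              have : φ i = φ v := by
                apply hG.uniq f hf _ hif _ hvf
                rw [hV.col i hiu, hV.col v hvu, hiv]
              have : i = v := hV.inj i v hiu hvu this
              subst this
              rw [tb_lor, tb_shl1]; simp
            · right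
              rw [tb_andNot, ha, tb_partMask]
              have hiv' : i / 16 ≠ Nat.div v 16 := hiv
              simp [hiv']
        · intro i j hi hj hiu hju hij
          rw [tb_lor, Bool.or_eq_true, tb_shl1, decide_eq_true_eq] at hi hj
          rcases hi with hi | hi
          · rcases hj with hj | hj
            · exact hA.a3 i j hi hj hiu hju hij
            · subst hj
              rw [hvu] at hju
              exact Bool.noConfusion hju
          · subst hi
            rw [hvu] at hiu
            exact Bool.noConfusion hiu
        · intro i hi
          rw [tb_lor, Bool.or_eq_true, tb_shl1, decide_eq_true_eq] at hi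
          rcases hi with hi | hi
          · exact hA.a4 i hi
          · subst hi
            exact hV.lt v hvu
      · have hne : ∀ i, S.used.testBit i = true → φ i ∈ f → i ≠ v := by
          intro i hiu hif hiv
          subst hiv
          exact hcase ⟨hiu, hif⟩
        have hnb : ∀ i, S.used.testBit i = true → φ i ∈ f →
            (Nat.shiftLeft 1 v).testBit i = false := by
          intro i hiu hif
          rw [tb_shl1]
          have := hne i hiu hif
          simp [Ne.symm this]
        refine s2 W c H φ f hG hV hf ?_ hcs ?_ hQ
        · refine ⟨hA.a1, ?_, hA.a3, hA.a4⟩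
          intro i hiu hif
          rcases hA.a2 i hiu hif with hp | ha
          · exact Or.inl hp
          · right
            rw [tb_andNot, ha, hnb i hiu hif]
            rfl
        · obtain ⟨i, hi, hiu, hif⟩ := hex
          refine ⟨i, ?_, hiu, hif⟩
          rw [tb_andNot, hi, hnb i hiu hif]
          rfl

/-- A nonzero mask has a bit. -/
theorem exists_bit_of_land_ne {a b : ℕ} (h : Nat.land a b ≠ 0) :
    ∃ i, a.testBit i = true ∧ b.testBit i = true := by
  by_contra hcon
  apply h
  apply Nat.eq_of_testBit_eq
  intro i
  rw [tb_land, Nat.zero_testBit]
  cases ha : a.testBit i with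
  | false => rfl
  | true =>
    cases hb : b.testBit i with
    | false => rfl
    | true => exact absurd ⟨i, ha, hb⟩ hcon

theorem sem_parts {r nu B : ℕ} {rc : Task → Cert → Option Cert}
    (hrc : ∀ t c res, rc t c = some res → SemT.{u} r nu B t)
    {nk : ℕ} {S : St} {p pat al : ℕ} {kids res : Cert}
    (h : stepParts r rc nk S p pat al kids = some res) :
    SemParts.{u} r nu B nk S p pat al := by
  unfold stepParts at h
  cases hb : Nat.blt p r with
  | false =>
    rw [hb] at h
    have hpr : r ≤ p := by
      have : ¬ p < r := by
        intro hlt
        have : Nat.blt p r = true := by simpa [Nat.blt_eq] using hlt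
        rw [hb] at this
        exact Bool.noConfusion this
      omega
    cases kids with
    | e => exact (none_ne h).elim
    | t T k => exact (none_ne h).elim
    | k k => exact (none_ne h).elim
    | r a b c d => exact (none_ne h).elim
    | a x rest =>
      cases h1 : rc (Task.chk nk (S.add pat)) x with
      | none =>
        have h' : Option.casesOn (motive := fun _ => Option Cert)
          (rc (Task.chk nk (S.add pat)) x) none (fun _ => some rest) = some res := h
        rw [h1] at h'
        exact (none_ne h').elim
      | some y =>
        have s1 : SemChk.{u} r nu B nk (S.add pat) := hrc _ _ _ h1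
        intro W c H φ f hG hV hf hA hall hQ
        obtain ⟨φ', h2, h3⟩ := child_step hG hV hf hA (fun q hq => hall q (by omega)) hQ
        exact s1 W c H φ' hG h2 h3
  | true =>
    rw [hb] at h
    have hpr : p < r := by simpa [Nat.blt_eq] using hb
    cases hz : Nat.beq (Nat.land pat (partMask p)) 0 with
    | false =>
      rw [hz] at h
      have s1 : SemParts.{u} r nu B nk S (Nat.succ p) pat al := hrc _ _ _ h
      intro W c H φ f hG hV hf hA hall hQ
      obtain ⟨i, hi1, hi2⟩ := exists_bit_of_land_ne (beq_zero_false hz)
      rw [tb_partMask, decide_eq_true_eq] at hi2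
      refine s1 W c H φ f hG hV hf hA ?_ hQ
      intro q hq
      by_cases hqp : q < p
      · exact hall q hqp
      · have : q = p := by omega
        subst this
        exact ⟨i, hi1, hi2⟩
    | true =>
      rw [hz] at h
      have s1 : SemPcand.{u} r nu B nk S p pat al (Nat.land al (Nat.land S.used (partMask p))) :=
        hrc _ _ _ h
      intro W c H φ f hG hV hf hA hall hQ
      have hz0 := beq_zero_true hz
      have hno : ∀ i, pat.testBit i = true → i / 16 ≠ p := by
        intro i hi hip
        have := not_tb_of_zero (i := i) hz0
        rw [tb_land, hi, tb_partMask] at this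
        simp [hip] at this
      refine s1 W c H φ f hG hV hf hA hall hpr hno ?_ ?_ hQ
      · intro i hi
        rw [tb_land, Bool.and_eq_true, tb_land, Bool.and_eq_true, tb_partMask,
          decide_eq_true_eq] at hi
        exact hi.2
      · intro i hiu hip hif
        rcases hA.a2 i hiu hif with hp' | ha
        · exact absurd hip (hno i hp')
        · rw [tb_land, Bool.and_eq_true, tb_land, Bool.and_eq_true, tb_partMask,
            decide_eq_true_eq]
          exact ⟨ha, hiu, hip⟩

theorem sem_pcand {r nu B : ℕ} {rc : Task → Cert → Option Cert}
    (hrc : ∀ t c res, rc t c = some res → SemT.{u} r nu B t)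
    {nk : ℕ} {S : St} {p pat al cands : ℕ} {kids res : Cert}
    (h : stepPcand rc nk S p pat al cands kids = some res) :
    SemPcand.{u} r nu B nk S p pat al cands := by
  unfold stepPcand at h
  cases hb : Nat.beq cands 0 with
  | true =>
    rw [hb] at h
    cases hfr : freshOk S.used p (freshIdx S.used p) with
    | false =>
      have h' : cond (freshOk S.used p (freshIdx S.used p))
        (rc (Task.parts nk S (Nat.succ p)
          (Nat.lor pat (Nat.shiftLeft 1 (freshIdx S.used p))) al) kids) none = some res := h
      rw [hfr] at h'
      exact (none_ne h').elim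
    | true =>
      have h' : cond (freshOk S.used p (freshIdx S.used p))
        (rc (Task.parts nk S (Nat.succ p)
          (Nat.lor pat (Nat.shiftLeft 1 (freshIdx S.used p))) al) kids) none = some res := h
      rw [hfr] at h'
      have s1 : SemParts.{u} r nu B nk S (Nat.succ p)
        (Nat.lor pat (Nat.shiftLeft 1 (freshIdx S.used p))) al := hrc _ _ _ h'
      generalize freshIdx S.used p = x at hfr s1
      have hfr' : freshOk S.used p x = true := hfr
      unfold freshOk at hfr'
      have hx := hfr'
      rw [Bool.and_eq_true] at hx
      have hx1 : x / 16 = p := Nat.eq_of_beq_eq_true hx.1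
      have hx2 : S.used.testBit x = false := by
        have := hx.2
        cases hu : S.used.testBit x with
        | false => rfl
        | true =>
          rw [hu] at this
          exact Bool.noConfusion this
      have hc0 := beq_zero_true hb
      intro W c H φ f hG hV hf hA hall hpr hno _ hcf hQ
      have hnof : ∀ j, S.used.testBit j = true → j / 16 = p → φ j ∉ f := by
        intro j hju hjp hjf
        have := hcf j hju hjp hjf
        rw [hc0] at this
        simp at this
      refine s1 W c H φ f hG hV hf ?_ ?_ hQ
      · refine ⟨?_, ?_, ?_, ?_⟩
        · intro i hi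
          rw [tb_lor, Bool.or_eq_true, tb_shl1, decide_eq_true_eq] at hi
          rcases hi with hi | hi
          · exact hA.a1 i hi
          · subst hi
            refine Or.inr ⟨hx2, ?_⟩
            intro j hju hjp
            exact hnof j hju (by omega)
        · intro i hiu hif
          rcases hA.a2 i hiu hif with hp | ha
          · left
            rw [tb_lor, hp, Bool.true_or]
          · exact Or.inr ha
        · intro i j hi hj hiu hju hij
          rw [tb_lor, Bool.or_eq_true, tb_shl1, decide_eq_true_eq] at hi hj
          rcases hi with hi | hi
          · rcases hj with hj | hj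
            · exact hA.a3 i j hi hj hiu hju hij
            · subst hj
              exact absurd (by omega) (hno i hi)
          · subst hi
            rcases hj with hj | hj
            · exact absurd (by omega) (hno j hj)
            · exact hj
        · intro i hi
          rw [tb_lor, Bool.or_eq_true, tb_shl1, decide_eq_true_eq] at hi
          rcases hi with hi | hi
          · exact hA.a4 i hi
          · subst hi
            omega
      · intro q hq
        by_cases hqp : q < p
        · obtain ⟨i, hi, hi2⟩ := hall q hqp
          exact ⟨i, by rw [tb_lor, hi, Bool.true_or], hi2⟩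
        · have : q = p := by omega
          subst this
          exact ⟨x, by rw [tb_lor, tb_shl1]; simp, hx1⟩
  | false =>
    rw [hb] at h
    have h' : stepPcand2 rc nk S p pat al cands (Nat.shiftLeft 1 (Nat.log2 cands)) kids
      = some res := h
    unfold stepPcand2 at h'
    generalize Nat.log2 cands = v at h'
    cases h1 : rc (Task.parts nk S (Nat.succ p) (Nat.lor pat (Nat.shiftLeft 1 v)) al) kids with
    | none =>
      rw [h1] at h'
      exact (none_ne h').elim
    | some kids' =>
      rw [h1] at h'
      have h2 : rc (Task.pcand nk S p pat al (andNot cands (Nat.shiftLeft 1 v))) kids' =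
        some res := h'
      have s1 : SemParts.{u} r nu B nk S (Nat.succ p) (Nat.lor pat (Nat.shiftLeft 1 v)) al :=
        hrc _ _ _ h1
      have s2 : SemPcand.{u} r nu B nk S p pat al (andNot cands (Nat.shiftLeft 1 v)) :=
        hrc _ _ _ h2
      intro W c H φ f hG hV hf hA hall hpr hno hcu hcf hQ
      by_cases hcase : cands.testBit v = true ∧ φ v ∈ f
      · obtain ⟨hvc, hvf⟩ := hcase
        obtain ⟨hvu, hvp⟩ := hcu v hvc
        refine s1 W c H φ f hG hV hf ?_ ?_ hQ
        · refine ⟨?_, ?_, ?_, ?_⟩
          · intro i hi
            rw [tb_lor, Bool.or_eq_true, tb_shl1, decide_eq_true_eq] at hi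
            rcases hi with hi | hi
            · exact hA.a1 i hi
            · subst hi
              exact Or.inl ⟨hvu, hvf⟩
          · intro i hiu hif
            rcases hA.a2 i hiu hif with hp | ha
            · left
              rw [tb_lor, hp, Bool.true_or]
            · exact Or.inr ha
          · intro i j hi hj hiu hju hij
            rw [tb_lor, Bool.or_eq_true, tb_shl1, decide_eq_true_eq] at hi hj
            rcases hi with hi | hi
            · rcases hj with hj | hj
              · exact hA.a3 i j hi hj hiu hju hij
              · subst hj
                rw [hvu] at hju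
                exact Bool.noConfusion hju
            · subst hi
              rw [hvu] at hiu
              exact Bool.noConfusion hiu
          · intro i hi
            rw [tb_lor, Bool.or_eq_true, tb_shl1, decide_eq_true_eq] at hi
            rcases hi with hi | hi
            · exact hA.a4 i hi
            · subst hi
              omega
        · intro q hq
          by_cases hqp : q < p
          · obtain ⟨i, hi, hi2⟩ := hall q hqp
            exact ⟨i, by rw [tb_lor, hi, Bool.true_or], hi2⟩
          · have : q = p := by omega
            subst this
            exact ⟨v, by rw [tb_lor, tb_shl1]; simp, hvp⟩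
      · refine s2 W c H φ f hG hV hf hA hall hpr hno ?_ ?_ hQ
        · intro i hi
          rw [tb_andNot, Bool.and_eq_true] at hi
          exact hcu i hi.1
        · intro i hiu hip hif
          have hci := hcf i hiu hip hif
          have hiv : v ≠ i := by
            intro hiv
            subst hiv
            exact hcase ⟨hci, hif⟩
          rw [tb_andNot, hci, tb_shl1]
          simp [hiv]

end Vale.Agent.Lib.P045
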