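import Mathlib
import Vale.Agent.Lib.P045.Check

/-!
Soundness of the checker in `Check.lean`.
-/

namespace Vale.Agent.Lib.P045

universe u

/-! ### Bits -/

theorem tb_land (a b i : Nat) : (Nat.land a b).testBit i = (a.testBit i && b.testBit i) :=
  Nat.testBit_and a b i

theorem tb_lor (a b i : Nat) : (Nat.lor a b).testBit i = (a.testBit i || b.testBit i) :=
  Nat.testBit_or a b i

theorem tb_xor (a b i : Nat) : (Nat.xor a b).testBit i = (a.testBit i ^^ b.testBit i) :=
  Nat.testBit_xor a b i

theorem tb_andNot (a b i : Nat) : (andNot a b).testBit i = (a.testBit i && !b.testBit i) := by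
  unfold andNot
  rw [tb_xor, tb_land]
  cases a.testBit i <;> cases b.testBit i <;> rfl

theorem tb_shl1 (a i : Nat) : (Nat.shiftLeft 1 a).testBit i = decide (a = i) := by
  have : Nat.shiftLeft 1 a = 2 ^ a := by
    show 1 <<< a = 2 ^ a
    rw [Nat.shiftLeft_eq, Nat.one_mul]
  rw [this, Nat.testBit_two_pow]

theorem tb_partMask (p i : Nat) : (partMask p).testBit i = decide (i / 16 = p) := by
  have h65535 : (65535 : Nat) = 2 ^ 16 - 1 := by norm_num
  have h0 : partMask p = (2 ^ 16 - 1) <<< (p * 16) := by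
    unfold partMask
    rw [← h65535]
    rfl
  rw [h0, Nat.testBit_shiftLeft, Nat.testBit_two_pow_sub_one]
  by_cases h : i / 16 = p
  · have h1 : i ≥ p * 16 := by omega
    have h2 : i - p * 16 < 16 := by omega
    simp [h, h1, h2]
  · have : ¬ (i ≥ p * 16 ∧ i - p * 16 < 16) := by
      intro ⟨h1, h2⟩
      apply h
      omega
    simp only [h, decide_false, Bool.and_eq_false_iff, decide_eq_false_iff_not]
    by_cases h1 : i ≥ p * 16
    · right; intro h2; exact this ⟨h1, h2⟩
    · left; exact h1

theorem beq_zero_true {x : Nat} (h : Nat.beq x 0 = true) : x = 0 := Nat.eq_of_beq_eq_true h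

theorem beq_zero_false {x : Nat} (h : Nat.beq x 0 = false) : x ≠ 0 := Nat.ne_of_beq_eq_false h

theorem not_tb_of_zero {x i : Nat} (h : x = 0) : x.testBit i = false := by
  subst h; simp

theorem dig_lt (x q : Nat) : dig x q < 16 := Nat.mod_lt _ (by norm_num)

theorem code_div (q l : Nat) (h : l < 16) : (q * 16 + l) / 16 = q := by omega

theorem code_mod (q l : Nat) (h : l < 16) : (q * 16 + l) % 16 = l := by omega

theorem tb_emask (e n i : Nat) :
    (emask e n).testBit i = true ↔ ∃ p, p < n ∧ i = p * 16 + dig e p := by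
  induction n with
  | zero => simp [emask]
  | succ n ih =>
    have : emask e (n + 1) = Nat.lor (emask e n) (Nat.shiftLeft 1 (n * 16 + dig e n)) := rfl
    rw [this, tb_lor, Bool.or_eq_true, ih, tb_shl1, decide_eq_true_eq]
    constructor
    · rintro (⟨p, hp, rfl⟩ | h)
      · exact ⟨p, by omega, rfl⟩
      · exact ⟨n, by omega, h.symm⟩
    · rintro ⟨p, hp, rfl⟩
      by_cases h : p < n
      · exact Or.inl ⟨p, h, rfl⟩
      · have : p = n := by omega
        subst this
        exact Or.inr rfl

theorem tb_mapEdge (perm : Nat) (maps : List Nat) (e n i : Nat) :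
    (mapEdge perm maps e n).testBit i = true ↔
      ∃ p, p < n ∧ i = rho perm maps (p * 16 + dig e p) := by
  induction n with
  | zero => simp [mapEdge]
  | succ n ih =>
    have : mapEdge perm maps e (n + 1) =
        Nat.lor (mapEdge perm maps e n) (Nat.shiftLeft 1 (rho perm maps (n * 16 + dig e n))) := rfl
    rw [this, tb_lor, Bool.or_eq_true, ih, tb_shl1, decide_eq_true_eq]
    constructor
    · rintro (⟨p, hp, rfl⟩ | h)
      · exact ⟨p, by omega, rfl⟩
      · exact ⟨n, by omega, h.symm⟩
    · rintro ⟨p, hp, rfl⟩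
      by_cases h : p < n
      · exact Or.inl ⟨p, h, rfl⟩
      · have : p = n := by omega
        subst this
        exact Or.inr rfl

/-- The digits of the mask of a cover node. -/
def tList : Nat → Nat → List Nat
  | 0, _ => []
  | n + 1, t => (t % 256) :: tList n (t / 256)

theorem tList_length (n t : Nat) : (tList n t).length = n := by
  induction n generalizing t with
  | zero => rfl
  | succ n ih => simp [tList, ih]

theorem tb_tMask (n t i : Nat) : (tMask n t).testBit i = true → i ∈ tList n t := by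
  induction n generalizing t with
  | zero => intro h; simp [tMask] at h
  | succ n ih =>
    have : tMask (n + 1) t = Nat.lor (Nat.shiftLeft 1 (t % 256)) (tMask n (t / 256)) := rfl
    rw [this, tb_lor, Bool.or_eq_true, tb_shl1, decide_eq_true_eq]
    rintro (h | h)
    · simp [tList, h]
    · simp only [tList, List.mem_cons]
      exact Or.inr (ih _ h)

theorem tb_injOk (m n acc : Nat) (h : injOk m n acc = true) :
    (∀ l, l < n → acc.testBit (dig m l) = false) ∧
    ∀ l l', l < n → l' < n → dig m l = dig m l' → l = l' := by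
  induction n generalizing acc with
  | zero => exact ⟨fun l hl => absurd hl (by omega), fun l l' hl => absurd hl (by omega)⟩
  | succ n ih =>
    have h0 : injOk m (n + 1) acc =
      and (Nat.beq (Nat.land acc (Nat.shiftLeft 1 (dig m n))) 0)
        (injOk m n (Nat.lor acc (Nat.shiftLeft 1 (dig m n)))) := rfl
    rw [h0, Bool.and_eq_true] at h
    obtain ⟨h1, h2⟩ := h
    obtain ⟨h3, h4⟩ := ih _ h2
    have h1' := beq_zero_true h1
    have hn : acc.testBit (dig m n) = false := by
      have := not_tb_of_zero (i := dig m n) h1'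
      rw [tb_land, tb_shl1] at this
      simpa using this
    have hlt : ∀ l, l < n → acc.testBit (dig m l) = false ∧ dig m n ≠ dig m l := by
      intro l hl
      have := h3 l hl
      rw [tb_lor, tb_shl1, Bool.or_eq_false_iff] at this
      exact ⟨this.1, by simpa using this.2⟩
    refine ⟨?_, ?_⟩
    · intro l hl
      by_cases hln : l < n
      · exact (hlt l hln).1
      · have : l = n := by omega
        subst this; exact hn
    · intro l l' hl hl' heq
      by_cases h5 : l < n
      · by_cases h6 : l' < n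
        · exact h4 l l' h5 h6 heq
        · have : l' = n := by omega
          subst this
          exact absurd heq.symm (hlt l h5).2
      · have : l = n := by omega
        subst this
        by_cases h6 : l' < l
        · exact absurd heq (hlt l' h6).2
        · omega

/-! ### Semantics -/

/-- The bits of `m` map onto the vertices of `e`. -/
def Realizes {W : Type u} (φ : ℕ → W) (m : ℕ) (e : Finset W) : Prop :=
  ∀ v, v ∈ e ↔ ∃ i, m.testBit i = true ∧ φ i = v

/-- `u` is the code of a union of `j` pairwise disjoint edges of `H`. -/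
def MU {W : Type u} (H : Finset (Finset W)) (φ : ℕ → W) (j u : ℕ) : Prop :=
  ∃ M : Finset (Finset W), M ⊆ H ∧ M.card = j ∧
    (∀ a ∈ M, ∀ b ∈ M, a ≠ b → ∀ v, v ∈ a → v ∉ b) ∧
    ∀ v, (∃ a ∈ M, v ∈ a) ↔ ∃ i, u.testBit i = true ∧ φ i = v

/-- The hypotheses on a hypergraph which is a counterexample to the bound. -/
structure Good (r nu B : ℕ) {W : Type u} (c : W → ℕ) (H : Finset (Finset W)) : Prop where
  pos : 0 < r
  parts : ∀ e ∈ H, ∀ p, p < r → ∃ v ∈ e, c v = p
  uniq : ∀ e ∈ H, ∀ v ∈ e, ∀ w ∈ e, c v = c w → v = w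
  col_lt : ∀ e ∈ H, ∀ v ∈ e, c v < r
  nu_le : ∀ M : Finset (Finset W), M ⊆ H → (∀ a ∈ M, ∀ b ∈ M, a ≠ b → ∀ v, v ∈ a → v ∉ b) →
    M.card ≤ nu
  tau : ∀ T : Finset W, T.card ≤ B → ∃ e ∈ H, ∀ v ∈ e, v ∉ T

/-- Levels: level number `j` holds codes of unions of `j` disjoint edges. -/
def LevelsOK {W : Type u} (H : Finset (Finset W)) (φ : ℕ → W) (U : ℕ) :
    ℕ → List (List ℕ) → Prop
  | _, [] => True
  | j, L :: rest =>
    (∀ u ∈ L, MU H φ j u ∧ ∀ i, u.testBit i = true → U.testBit i = true) ∧
      LevelsOK H φ U (j + 1) rest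

/-- The map `φ` embeds the state `S` in the hypergraph. -/
structure Valid (r nu : ℕ) {W : Type u} (c : W → ℕ) (H : Finset (Finset W)) (φ : ℕ → W)
    (S : St) : Prop where
  lt : ∀ i, S.used.testBit i = true → i / 16 < r
  col : ∀ i, S.used.testBit i = true → c (φ i) = i / 16
  inj : ∀ i j, S.used.testBit i = true → S.used.testBit j = true → φ i = φ j → i = j
  edges : ∀ m ∈ S.edges, (∃ e ∈ H, Realizes φ m e) ∧ ∀ i, m.testBit i = true → S.used.testBit i = true
  lev : LevelsOK H φ S.used 0 S.levels
  len : S.levels.length = nu + 1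

/-- Pending matching edges. -/
def Ctx {W : Type u} (c : W → ℕ) (H : Finset (Finset W)) (φ : ℕ → W) (S : St) (kl : ℕ) : Prop :=
  ∃ Q : Finset (Finset W), Q ⊆ H ∧ Q.card = kl ∧
    (∀ a ∈ Q, ∀ b ∈ Q, a ≠ b → ∀ v, v ∈ a → v ∈ b → 2 ≤ c v) ∧
    ∀ a ∈ Q, ∀ i, S.used.testBit i = true → i / 16 < 2 → φ i ∉ a

/-- Pending matching edges, also avoiding the new edge `f`. -/
def CtxF {W : Type u} (c : W → ℕ) (H : Finset (Finset W)) (φ : ℕ → W) (S : St) (f : Finset W)
    (kl : ℕ) : Prop :=
  ∃ Q : Finset (Finset W), Q ⊆ H ∧ Q.card = kl ∧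
    (∀ a ∈ Q, ∀ b ∈ Q, a ≠ b → ∀ v, v ∈ a → v ∈ b → 2 ≤ c v) ∧
    (∀ a ∈ Q, ∀ i, S.used.testBit i = true → i / 16 < 2 → φ i ∉ a) ∧
    ∀ a ∈ Q, ∀ v, v ∈ f → v ∈ a → 2 ≤ c v

/-- The statement proved by a check of a state. -/
def SemChk (r nu B kl : ℕ) (S : St) : Prop :=
  ∀ (W : Type u) (c : W → ℕ) (H : Finset (Finset W)) (φ : ℕ → W),
    Good r nu B c H → Valid r nu c H φ S → Ctx c H φ S kl → False

/-- The statement that a state with compact edges `code` does not occur. -/
def RefK (r nu B kl : ℕ) (code : List ℕ) : Prop := SemChk.{u} r nu B kl (stateOf r nu code)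

/-- All entries of the list are refuted states. -/
def KnownOK (r nu B : ℕ) : List (ℕ × List ℕ) → Prop
  | [] => True
  | x :: l => RefK.{u} r nu B x.1 x.2 ∧ KnownOK r nu B l

/-- `f` agrees with the partial pattern `pat`, and `al` contains the allowed vertices. -/
structure Agree {W : Type u} (r : ℕ) (φ : ℕ → W) (S : St) (f : Finset W) (pat al : ℕ) : Prop where
  a1 : ∀ i, pat.testBit i = true →
    (S.used.testBit i = true ∧ φ i ∈ f) ∨
    (S.used.testBit i = false ∧ ∀ j, S.used.testBit j = true → j / 16 = i / 16 → φ j ∉ f)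
  a2 : ∀ i, S.used.testBit i = true → φ i ∈ f → pat.testBit i = true ∨ al.testBit i = true
  a3 : ∀ i j, pat.testBit i = true → pat.testBit j = true → S.used.testBit i = false →
    S.used.testBit j = false → i / 16 = j / 16 → i = j
  a4 : ∀ i, pat.testBit i = true → i / 16 < r

/-- The statement proved by the search for a pattern. -/
def SemDfs (r nu B nk : ℕ) (S : St) (cs : List ℕ) (pat al : ℕ) : Prop :=
  ∀ (W : Type u) (c : W → ℕ) (H : Finset (Finset W)) (φ : ℕ → W) (f : Finset W),
    Good r nu B c H → Valid r nu c H φ S → f ∈ H → Agree r φ S f pat al →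
    (∀ u ∈ cs, ∃ i, u.testBit i = true ∧ S.used.testBit i = true ∧ φ i ∈ f) →
    CtxF c H φ S f nk → False

/-- The statement proved by the trial of candidates. -/
def SemCand (r nu B nk : ℕ) (S : St) (cs : List ℕ) (pat al cands : ℕ) : Prop :=
  ∀ (W : Type u) (c : W → ℕ) (H : Finset (Finset W)) (φ : ℕ → W) (f : Finset W),
    Good r nu B c H → Valid r nu c H φ S → f ∈ H → Agree r φ S f pat al →
    (∀ u ∈ cs, ∃ i, u.testBit i = true ∧ S.used.testBit i = true ∧ φ i ∈ f) →
    (∃ i, cands.testBit i = true ∧ S.used.testBit i = true ∧ φ i ∈ f) →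
    CtxF c H φ S f nk → False

/-- The statement proved by the completion of a pattern. -/
def SemParts (r nu B nk : ℕ) (S : St) (p pat al : ℕ) : Prop :=
  ∀ (W : Type u) (c : W → ℕ) (H : Finset (Finset W)) (φ : ℕ → W) (f : Finset W),
    Good r nu B c H → Valid r nu c H φ S → f ∈ H → Agree r φ S f pat al →
    (∀ q, q < p → ∃ i, pat.testBit i = true ∧ i / 16 = q) →
    CtxF c H φ S f nk → False

/-- The statement proved by the trial of vertices in a part. -/
def SemPcand (r nu B nk : ℕ) (S : St) (p pat al cands : ℕ) : Prop :=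
  ∀ (W : Type u) (c : W → ℕ) (H : Finset (Finset W)) (φ : ℕ → W) (f : Finset W),
    Good r nu B c H → Valid r nu c H φ S → f ∈ H → Agree r φ S f pat al →
    (∀ q, q < p → ∃ i, pat.testBit i = true ∧ i / 16 = q) →
    p < r →
    (∀ i, pat.testBit i = true → i / 16 ≠ p) →
    (∀ i, cands.testBit i = true → S.used.testBit i = true ∧ i / 16 = p) →
    (∀ i, S.used.testBit i = true → i / 16 = p → φ i ∈ f → cands.testBit i = true) →
    CtxF c H φ S f nk → False

/-! ### Basic semantic lemmas -/

theorem edge_nonempty {r nu B : ℕ} {W : Type u} {c : W → ℕ} {H : Finset (Finset W)}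
    (hG : Good r nu B c H) {f : Finset W} (hf : f ∈ H) : ∃ v, v ∈ f := by
  obtain ⟨v, hv, _⟩ := hG.parts f hf 0 hG.pos
  exact ⟨v, hv⟩

/-- Every edge meets the union of `nu` disjoint edges. -/
theorem hits_of_MU {r nu B : ℕ} {W : Type u} {c : W → ℕ} {H : Finset (Finset W)} {φ : ℕ → W}
    (hG : Good r nu B c H) {u : ℕ} (hu : MU H φ nu u) {f : Finset W} (hf : f ∈ H) :
    ∃ i, u.testBit i = true ∧ φ i ∈ f := by
  classical
  obtain ⟨M, hMH, hMc, hMd, hMu⟩ := hu
  by_contra hcon
  have hno : ∀ a ∈ M, ∀ v, v ∈ a → v ∉ f := by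
    intro a ha v hva hvf
    obtain ⟨i, hi, rfl⟩ := (hMu v).1 ⟨a, ha, hva⟩
    exact hcon ⟨i, hi, hvf⟩
  have hfM : f ∉ M := by
    intro hfM
    obtain ⟨v, hv⟩ := edge_nonempty hG hf
    exact hno f hfM v hv hv
  have := hG.nu_le (insert f M) (by
      intro a ha
      rcases Finset.mem_insert.1 ha with h1 | ha
      · exact h1 ▸ hf
      · exact hMH ha) (by
      intro a ha b hb hab v hva
      rcases Finset.mem_insert.1 ha with h1 | ha
      · rcases Finset.mem_insert.1 hb with h2 | hb
        · exact absurd (h1.trans h2.symm) hab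
        · intro hvb
          exact hno b hb v hvb (h1 ▸ hva)
      · rcases Finset.mem_insert.1 hb with h2 | hb
        · rw [h2]
          exact hno a ha v hva
        · exact hMd a ha b hb hab v hva)
  rw [Finset.card_insert_of_notMem hfM, hMc] at this
  omega

theorem MU_zero {W : Type u} (H : Finset (Finset W)) (φ : ℕ → W) : MU H φ 0 0 := by
  refine ⟨∅, by simp, by simp, by simp, ?_⟩
  intro v
  simp

theorem MU_add {W : Type u} {H : Finset (Finset W)} {φ : ℕ → W} {j u g : ℕ} {f : Finset W}
    (hu : MU H φ j u) (hf : f ∈ H) (hr : Realizes φ g f) (hne : ∃ v, v ∈ f)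
    (hdis : Nat.land u g = 0)
    (hinj : ∀ a b, u.testBit a = true → g.testBit b = true → φ a = φ b → a = b) :
    MU H φ (j + 1) (Nat.lor u g) := by
  classical
  obtain ⟨M, hMH, hMc, hMd, hMu⟩ := hu
  have hno : ∀ a ∈ M, ∀ v, v ∈ a → v ∉ f := by
    intro a ha v hva hvf
    obtain ⟨i, hi, rfl⟩ := (hMu v).1 ⟨a, ha, hva⟩
    obtain ⟨k, hk, hkv⟩ := (hr _).1 hvf
    have := hinj i k hi hk hkv.symm
    subst this
    have h0 := not_tb_of_zero (i := i) hdis
    rw [tb_land, hi, hk] at h0
    simp at h0
  have hfM : f ∉ M := by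
    intro hfM
    obtain ⟨v, hv⟩ := hne
    exact hno f hfM v hv hv
  refine ⟨insert f M, ?_, ?_, ?_, ?_⟩
  · intro a ha
    rcases Finset.mem_insert.1 ha with h1 | ha
    · exact h1 ▸ hf
    · exact hMH ha
  · rw [Finset.card_insert_of_notMem hfM, hMc]
  · intro a ha b hb hab v hva
    rcases Finset.mem_insert.1 ha with h1 | ha
    · rcases Finset.mem_insert.1 hb with h2 | hb
      · exact absurd (h1.trans h2.symm) hab
      · intro hvb
        exact hno b hb v hvb (h1 ▸ hva)
    · rcases Finset.mem_insert.1 hb with h2 | hb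
      · rw [h2]
        exact hno a ha v hva
      · exact hMd a ha b hb hab v hva
  · intro v
    constructor
    · rintro ⟨a, ha, hva⟩
      rcases Finset.mem_insert.1 ha with h1 | ha
      · obtain ⟨i, hi, hiv⟩ := (hr _).1 (h1 ▸ hva)
        exact ⟨i, by rw [tb_lor, hi, Bool.or_true], hiv⟩
      · obtain ⟨i, hi, hiv⟩ := (hMu v).1 ⟨a, ha, hva⟩
        exact ⟨i, by rw [tb_lor, hi, Bool.true_or], hiv⟩
    · rintro ⟨i, hi, hiv⟩
      rw [tb_lor, Bool.or_eq_true] at hi
      rcases hi with hi | hi
      · obtain ⟨a, ha, hva⟩ := (hMu v).2 ⟨i, hi, hiv⟩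
        exact ⟨a, Finset.mem_insert_of_mem ha, hva⟩
      · exact ⟨f, Finset.mem_insert_self _ _, (hr _).2 ⟨i, hi, hiv⟩⟩

theorem LevelsOK_mono {W : Type u} {H : Finset (Finset W)} {φ : ℕ → W} {U U' : ℕ}
    (hU : ∀ i, U.testBit i = true → U'.testBit i = true) (j : ℕ) (L : List (List ℕ))
    (h : LevelsOK H φ U j L) : LevelsOK H φ U' j L := by
  induction L generalizing j with
  | nil => trivial
  | cons A rest ih =>
    refine ⟨fun u hu => ⟨(h.1 u hu).1, fun i hi => hU i ((h.1 u hu).2 i hi)⟩, ih _ h.2⟩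

theorem levels_add {W : Type u} {H : Finset (Finset W)} {φ : ℕ → W} {U g : ℕ} {f : Finset W}
    (hf : f ∈ H) (hr : Realizes φ g f) (hne : ∃ v, v ∈ f)
    (hg : ∀ i, g.testBit i = true → U.testBit i = true)
    (hinj : ∀ a b, U.testBit a = true → U.testBit b = true → φ a = φ b → a = b)
    (rest : List (List ℕ)) (j : ℕ) (prev : List ℕ)
    (hp : ∀ u ∈ prev, MU H φ j u ∧ ∀ i, u.testBit i = true → U.testBit i = true)
    (h : LevelsOK H φ U (j + 1) rest) :
    LevelsOK H φ U (j + 1) (addLevels g prev rest) := by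
  induction rest generalizing j prev with
  | nil => trivial
  | cons L rest ih =>
    refine ⟨?_, ih (j + 1) L h.1 h.2⟩
    intro u hu
    rw [List.mem_append] at hu
    rcases hu with hu | hu
    · obtain ⟨w, hw, rfl⟩ := List.mem_map.1 hu
      obtain ⟨hw1, hw2⟩ := List.mem_filter.1 hw
      have hw0 := beq_zero_true hw2
      obtain ⟨hw3, hw4⟩ := hp w hw1
      refine ⟨MU_add hw3 hf hr hne hw0 (fun a b ha hb => hinj a b (hw4 a ha) (hg b hb)), ?_⟩
      intro i hi
      rw [tb_lor, Bool.or_eq_true] at hi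
      rcases hi with hi | hi
      · exact hw4 i hi
      · exact hg i hi
    · exact h.1 u hu

theorem levels_addAll {W : Type u} {H : Finset (Finset W)} {φ : ℕ → W} {U g : ℕ} {f : Finset W}
    (hf : f ∈ H) (hr : Realizes φ g f) (hne : ∃ v, v ∈ f)
    (hg : ∀ i, g.testBit i = true → U.testBit i = true)
    (hinj : ∀ a b, U.testBit a = true → U.testBit b = true → φ a = φ b → a = b)
    (L : List (List ℕ)) (h : LevelsOK H φ U 0 L) : LevelsOK H φ U 0 (addAll g L) := by
  cases L with
  | nil => trivial
  | cons A rest =>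
    exact ⟨h.1, levels_add hf hr hne hg hinj rest 0 A h.1 h.2⟩

theorem addLevels_length (g : ℕ) (rest : List (List ℕ)) (prev : List ℕ) :
    (addLevels g prev rest).length = rest.length := by
  induction rest generalizing prev with
  | nil => rfl
  | cons L rest ih => simp [addLevels, ih]

theorem addAll_length (g : ℕ) (L : List (List ℕ)) : (addAll g L).length = L.length := by
  cases L with
  | nil => rfl
  | cons A rest => simp [addAll, addLevels_length]

/-- The edges of `H` hit the top level. -/
theorem top_hits_aux {r nu B : ℕ} {W : Type u} {c : W → ℕ} {H : Finset (Finset W)} {φ : ℕ → W}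
    {U : ℕ} (hG : Good r nu B c H) (L : List (List ℕ)) (j : ℕ) (hL : LevelsOK H φ U j L)
    (hlen : j + L.length = nu + 1) {f : Finset W} (hf : f ∈ H) :
    ∀ u ∈ L.getLastD [], ∃ i, u.testBit i = true ∧ U.testBit i = true ∧ φ i ∈ f := by
  induction L generalizing j with
  | nil => simp
  | cons A rest ih =>
    cases rest with
    | nil =>
      intro u hu
      simp only [List.getLastD_cons, List.getLastD_nil] at hu
      have hj : j = nu := by simpa using hlen
      subst hj
      obtain ⟨h1, h2⟩ := hL.1 u hu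
      obtain ⟨i, hi, hif⟩ := hits_of_MU hG h1 hf
      exact ⟨i, hi, h2 i hi, hif⟩
    | cons B rest' =>
      have := ih (j + 1) hL.2 (by simpa [Nat.add_assoc, Nat.add_comm, Nat.add_left_comm] using hlen)
      simpa [List.getLastD_cons] using this

theorem top_hits {r nu B : ℕ} {W : Type u} {c : W → ℕ} {H : Finset (Finset W)} {φ : ℕ → W}
    {S : St} (hG : Good r nu B c H) (hV : Valid r nu c H φ S) {f : Finset W} (hf : f ∈ H) :
    ∀ u ∈ S.top, ∃ i, u.testBit i = true ∧ S.used.testBit i = true ∧ φ i ∈ f :=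
  top_hits_aux hG S.levels 0 hV.lev (by rw [hV.len]; omega) hf

/-- Changing the map outside the used vertices keeps unions. -/
theorem MU_congr {W : Type u} {H : Finset (Finset W)} {φ φ' : ℕ → W} {U j u : ℕ}
    (he : ∀ i, U.testBit i = true → φ' i = φ i)
    (hu : ∀ i, u.testBit i = true → U.testBit i = true) (h : MU H φ j u) : MU H φ' j u := by
  obtain ⟨M, h1, h2, h3, h4⟩ := h
  refine ⟨M, h1, h2, h3, fun v => ?_⟩
  rw [h4 v]
  constructor
  · rintro ⟨i, hi, rfl⟩
    exact ⟨i, hi, he i (hu i hi)⟩
  · rintro ⟨i, hi, rfl⟩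
    exact ⟨i, hi, (he i (hu i hi)).symm⟩

theorem LevelsOK_congr {W : Type u} {H : Finset (Finset W)} {φ φ' : ℕ → W} {U : ℕ}
    (he : ∀ i, U.testBit i = true → φ' i = φ i) (j : ℕ) (L : List (List ℕ))
    (h : LevelsOK H φ U j L) : LevelsOK H φ' U j L := by
  induction L generalizing j with
  | nil => trivial
  | cons A rest ih =>
    exact ⟨fun u hu => ⟨MU_congr he (h.1 u hu).2 (h.1 u hu).1, (h.1 u hu).2⟩, ih _ h.2⟩

/-- Adding an edge to a valid state: all conditions on the new vertices are given. -/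
theorem Valid.add {r nu : ℕ} {W : Type u} {c : W → ℕ} {H : Finset (Finset W)} {φ : ℕ → W}
    {S : St} (hV : Valid r nu c H φ S) {g : ℕ} {f : Finset W} (hf : f ∈ H)
    (hr : Realizes φ g f) (hne : ∃ v, v ∈ f)
    (hlt : ∀ i, g.testBit i = true → i / 16 < r)
    (hcol : ∀ i, g.testBit i = true → c (φ i) = i / 16)
    (hinj : ∀ i j, (S.used.testBit i = true ∨ g.testBit i = true) →
      (S.used.testBit j = true ∨ g.testBit j = true) → φ i = φ j → i = j) :
    Valid r nu c H φ (S.add g) := by
  have hU : ∀ i, (S.add g).used.testBit i = true ↔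
      (S.used.testBit i = true ∨ g.testBit i = true) := by
    intro i
    show (Nat.lor S.used g).testBit i = true ↔ _
    rw [tb_lor, Bool.or_eq_true]
  refine ⟨?_, ?_, ?_, ?_, ?_, ?_⟩
  · intro i hi
    rcases (hU i).1 hi with hi | hi
    · exact hV.lt i hi
    · exact hlt i hi
  · intro i hi
    rcases (hU i).1 hi with hi | hi
    · exact hV.col i hi
    · exact hcol i hi
  · intro i j hi hj heq
    exact hinj i j ((hU i).1 hi) ((hU j).1 hj) heq
  · intro m hm
    rcases List.mem_cons.1 hm with rfl | hm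
    · exact ⟨⟨f, hf, hr⟩, fun i hi => (hU i).2 (Or.inr hi)⟩
    · obtain ⟨h1, h2⟩ := hV.edges m hm
      exact ⟨h1, fun i hi => (hU i).2 (Or.inl (h2 i hi))⟩
  · have hmono : ∀ i, S.used.testBit i = true → (S.add g).used.testBit i = true :=
      fun i hi => (hU i).2 (Or.inl hi)
    exact levels_addAll hf hr hne (fun i hi => (hU i).2 (Or.inr hi))
      (fun a b ha hb => hinj a b ((hU a).1 ha) ((hU b).1 hb)) S.levels
      (LevelsOK_mono hmono 0 S.levels hV.lev)
  · show (addAll g S.levels).length = nu + 1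
    rw [addAll_length, hV.len]

/-- The child state is embedded by an extension of the map. -/
theorem child_step {r nu B nk : ℕ} {W : Type u} {c : W → ℕ} {H : Finset (Finset W)} {φ : ℕ → W}
    {S : St} {f : Finset W} {pat al : ℕ} (hG : Good r nu B c H) (hV : Valid r nu c H φ S)
    (hf : f ∈ H) (hA : Agree r φ S f pat al)
    (hall : ∀ q, q < r → ∃ i, pat.testBit i = true ∧ i / 16 = q)
    (hQ : CtxF c H φ S f nk) :
    ∃ φ' : ℕ → W, Valid r nu c H φ' (S.add pat) ∧ Ctx c H φ' (S.add pat) nk := by
  classical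
  obtain ⟨v0, hv0⟩ := edge_nonempty hG hf
  have : Nonempty W := ⟨v0⟩
  have hparts : ∀ p, p < r → ∃ v, v ∈ f ∧ c v = p := fun p hp => by
    obtain ⟨v, hv, hc⟩ := hG.parts f hf p hp
    exact ⟨v, hv, hc⟩
  choose! vf hvf using hparts
  let φ' : ℕ → W := fun i => if S.used.testBit i = true then φ i else vf (i / 16)
  have he : ∀ i, S.used.testBit i = true → φ' i = φ i := fun i hi => by
    simp only [φ', hi, if_true]
  have hfr : ∀ i, S.used.testBit i = false → φ' i = vf (i / 16) := fun i hi => by
    simp only [φ', hi]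
    simp
  have hp1 : ∀ i, pat.testBit i = true → φ' i ∈ f ∧ c (φ' i) = i / 16 := by
    intro i hi
    rcases hA.a1 i hi with ⟨h1, h2⟩ | ⟨h1, _⟩
    · rw [he i h1]
      exact ⟨h2, hV.col i h1⟩
    · rw [hfr i h1]
      exact hvf _ (hA.a4 i hi)
  have hr : Realizes φ' pat f := by
    intro v
    constructor
    · intro hv
      obtain ⟨i, hi, hic⟩ := hall (c v) (hG.col_lt f hf v hv)
      refine ⟨i, hi, ?_⟩
      obtain ⟨h1, h2⟩ := hp1 i hi
      exact hG.uniq f hf _ h1 _ hv (by rw [h2, hic])
    · rintro ⟨i, hi, rfl⟩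
      exact (hp1 i hi).1
  have hV' : Valid r nu c H φ' S :=
    ⟨hV.lt, fun i hi => by rw [he i hi]; exact hV.col i hi,
      fun i j hi hj heq => by
        rw [he i hi, he j hj] at heq
        exact hV.inj i j hi hj heq,
      fun m hm => by
        obtain ⟨⟨e, he1, he2⟩, h2⟩ := hV.edges m hm
        refine ⟨⟨e, he1, fun v => ?_⟩, h2⟩
        rw [he2 v]
        constructor
        · rintro ⟨i, hi, rfl⟩
          exact ⟨i, hi, he i (h2 i hi)⟩
        · rintro ⟨i, hi, rfl⟩
          exact ⟨i, hi, (he i (h2 i hi)).symm⟩,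
      LevelsOK_congr he 0 S.levels hV.lev, hV.len⟩
  have hmix : ∀ i j, S.used.testBit i = true → pat.testBit j = true → φ' i = φ' j → i = j := by
    intro i j hi hj heq
    cases hu : S.used.testBit j with
    | true =>
      exact hV'.inj i j hi hu heq
    | false =>
      exfalso
      obtain ⟨h1, h2⟩ := hp1 j hj
      rw [← heq] at h1 h2
      rcases hA.a1 j hj with ⟨h3, _⟩ | ⟨_, h4⟩
      · rw [hu] at h3; exact Bool.noConfusion h3
      · have hi' : i / 16 = j / 16 := by
          rw [← h2, hV'.col i hi]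
        rw [he i hi] at h1
        exact h4 i hi hi' h1
  refine ⟨φ', ?_, ?_⟩
  · refine Valid.add hV' hf hr ⟨v0, hv0⟩ hA.a4 (fun i hi => (hp1 i hi).2) ?_
    intro i j hi hj heq
    rcases hi with hi | hi
    · rcases hj with hj | hj
      · exact hV'.inj i j hi hj heq
      · exact hmix i j hi hj heq
    · rcases hj with hj | hj
      · exact (hmix j i hj hi heq.symm).symm
      · cases hui : S.used.testBit i with
        | true => exact hmix i j hui hj heq
        | false =>
          cases huj : S.used.testBit j with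
          | true => exact (hmix j i huj hi heq.symm).symm
          | false =>
            apply hA.a3 i j hi hj hui huj
            rw [← (hp1 i hi).2, ← (hp1 j hj).2, heq]
  · obtain ⟨Q, h1, h2, h3, h4, h5⟩ := hQ
    refine ⟨Q, h1, h2, h3, ?_⟩
    intro a ha i hi hi2 hia
    have hi' : S.used.testBit i = true ∨ pat.testBit i = true := by
      have : (Nat.lor S.used pat).testBit i = true := hi
      rw [tb_lor, Bool.or_eq_true] at this
      exact this
    cases hui : S.used.testBit i with
    | true =>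
      rw [he i hui] at hia
      exact h4 a ha i hui hi2 hia
    | false =>
      have hip : pat.testBit i = true := by
        rcases hi' with h | h
        · rw [hui] at h; exact Bool.noConfusion h
        · exact h
      have := h5 a ha (φ' i) (hp1 i hip).1 hia
      rw [(hp1 i hip).2] at this
      omega

end Vale.Agent.Lib.P045
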